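import Mathlib

open Set
open scoped RealInnerProductSpace

namespace Vale.Agent.Lib.P243

variable {E : Type*} [NormedAddCommGroup E] [InnerProductSpace ℝ E]

/-- The sign attached to a boolean. -/
def sgn (b : Bool) : ℝ := if b then 1 else -1

lemma sgn_not (b : Bool) : sgn (!b) = - sgn b := by
  cases b <;> simp [sgn]

lemma sgn_sq (b : Bool) : sgn b * sgn b = 1 := by
  cases b <;> simp [sgn]

lemma sgn_mul_le_abs (b : Bool) (x : ℝ) : sgn b * x ≤ |x| := by
  cases b
  · simp only [sgn]; simpa using neg_le_abs x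
  · simp only [sgn]; simpa using le_abs_self x

lemma sum_flip {ι M : Type*} [Fintype ι] [DecidableEq ι] [AddCommGroup M] (ε : ι → Bool) (i : ι)
    (g : Bool → ι → M) :
    ∑ j, g (Function.update ε i (!ε i) j) j = ∑ j, g (ε j) j + (g (!ε i) i - g (ε i) i) := by
  rw [← Finset.add_sum_erase Finset.univ _ (Finset.mem_univ i),
    ← Finset.add_sum_erase Finset.univ (fun j => g (ε j) j) (Finset.mem_univ i)]
  have h : ∑ j ∈ Finset.univ.erase i, g (Function.update ε i (!ε i) j) j
      = ∑ j ∈ Finset.univ.erase i, g (ε j) j := by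
    apply Finset.sum_congr rfl
    intro j hj
    rw [Function.update_of_ne (Finset.ne_of_mem_erase hj)]
  rw [h, Function.update_self]
  abel

/-- Bang's lemma: some signed sum of the vectors `h i • ν i` avoids all the open planks. -/
lemma bang_lemma {ι : Type*} [Fintype ι] (ν : ι → E) (hν : ∀ i, ‖ν i‖ = 1)
    (h : ι → ℝ) (hh : ∀ i, 0 < h i) (m : ι → ℝ) :
    ∃ ε : ι → Bool, ∀ i, h i ≤ |⟪∑ j, (sgn (ε j) * h j) • ν j, ν i⟫ - m i| := by
  classical
  let y : (ι → Bool) → E := fun ε => ∑ j, (sgn (ε j) * h j) • ν j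
  let F : (ι → Bool) → ℝ := fun ε => ‖y ε‖ ^ 2 - 2 * ∑ j, sgn (ε j) * h j * m j
  obtain ⟨ε, -, hε⟩ := Finset.exists_max_image Finset.univ F ⟨fun _ => true, Finset.mem_univ _⟩
  refine ⟨ε, fun i => ?_⟩
  have hflip := hε (Function.update ε i (!ε i)) (Finset.mem_univ _)
  have hy : y (Function.update ε i (!ε i)) = y ε - (2 * sgn (ε i) * h i) • ν i := by
    show ∑ j, (sgn (Function.update ε i (!ε i) j) * h j) • ν j = _
    rw [sum_flip ε i (fun b j => (sgn b * h j) • ν j), sgn_not, ← sub_smul, sub_eq_add_neg (y ε),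
      ← neg_smul]
    congr 2
    ring
  have hs : ∑ j, sgn (Function.update ε i (!ε i) j) * h j * m j
      = ∑ j, sgn (ε j) * h j * m j - 2 * sgn (ε i) * h i * m i := by
    rw [sum_flip ε i (fun b j => sgn b * h j * m j), sgn_not]
    ring
  have hF : F (Function.update ε i (!ε i)) = F ε - 4 * sgn (ε i) * h i * ⟪y ε, ν i⟫
      + 4 * h i ^ 2 + 4 * sgn (ε i) * h i * m i := by
    show ‖y (Function.update ε i (!ε i))‖ ^ 2
      - 2 * ∑ j, sgn (Function.update ε i (!ε i) j) * h j * m j = _
    rw [hy, hs, norm_sub_sq_real, inner_smul_right, norm_smul, hν i, mul_one, Real.norm_eq_abs,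
      sq_abs]
    have := sgn_sq (ε i)
    show _ = ‖y ε‖ ^ 2 - 2 * ∑ j, sgn (ε j) * h j * m j - _ + _ + _
    have e : (2 * sgn (ε i) * h i) ^ 2 = 4 * h i ^ 2 * (sgn (ε i) * sgn (ε i)) := by ring
    rw [e, this]
    ring
  rw [hF] at hflip
  have h1 : h i * h i ≤ h i * (sgn (ε i) * (⟪y ε, ν i⟫ - m i)) := by nlinarith
  have h2 : h i ≤ sgn (ε i) * (⟪y ε, ν i⟫ - m i) := le_of_mul_le_mul_left h1 (hh i)
  exact h2.trans (sgn_mul_le_abs _ _)

/-- Bang's plank theorem in chord form: if the convex set `C` has a chord of length `w` in each of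
the normal directions, then open planks of total width at most `w` do not cover `C`. -/
theorem bang_chord {ι : Type*} [Fintype ι] {C : Set E} (cC : Convex ℝ C) (neC : C.Nonempty)
    (ν : ι → E) (hν : ∀ i, ‖ν i‖ = 1) (h : ι → ℝ) (hh : ∀ i, 0 < h i) (m : ι → ℝ)
    {w : ℝ} (hw : 0 < w) (hsum : 2 * ∑ i, h i ≤ w) (chord : ∀ i, ∃ a ∈ C, a + w • ν i ∈ C) :
    ∃ x ∈ C, ∀ i, h i ≤ |⟪x, ν i⟫ - m i| := by
  classical
  choose a ha ha' using chord
  obtain ⟨c, hc⟩ := neC
  set r : ι → ℝ := fun i => 2 * h i / w with hr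
  have hr0 : ∀ i, 0 ≤ r i := fun i => by
    have := hh i
    positivity
  have hrs : ∑ i, r i ≤ 1 := by
    have : ∑ i, r i = (2 * ∑ i, h i) / w := by
      rw [Finset.mul_sum, Finset.sum_div]
    rw [this, div_le_one hw]
    exact hsum
  set x₀ : E := ∑ i, r i • (a i + (w / 2) • ν i) + (1 - ∑ i, r i) • c with hx₀
  obtain ⟨ε, hε⟩ := bang_lemma ν hν h hh (fun i => m i - ⟪x₀, ν i⟫)
  refine ⟨x₀ + ∑ j, (sgn (ε j) * h j) • ν j, ?_, fun i => ?_⟩
  · set p : ι → E := fun i => if ε i then a i + w • ν i else a i with hp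
    have hpC : ∀ i, p i ∈ C := by
      intro i
      simp only [hp]
      split_ifs
      · exact ha' i
      · exact ha i
    have e : x₀ + ∑ j, (sgn (ε j) * h j) • ν j
        = ∑ o : Option ι, (o.elim (1 - ∑ i, r i) r) • (o.elim c p) := by
      rw [Fintype.sum_option]
      simp only [Option.elim]
      rw [hx₀, add_right_comm, ← Finset.sum_add_distrib, add_comm]
      congr 1
      apply Finset.sum_congr rfl
      intro i _
      have hhi : h i = r i * (w / 2) := by
        simp only [hr]; field_simp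
      simp only [hp]
      cases ε i
      · simp only [sgn, Bool.false_eq_true, if_false]
        rw [hhi, smul_add, smul_smul, add_assoc, ← add_smul]
        have : r i * (w / 2) + -1 * (r i * (w / 2)) = 0 := by ring
        rw [this, zero_smul, add_zero]
      · simp only [sgn, if_true]
        rw [hhi, smul_add, smul_add, smul_smul, smul_smul, add_assoc, ← add_smul]
        congr 2
        ring
    rw [e]
    apply cC.sum_mem
    · intro o _
      cases o
      · simpa using hrs
      · exact hr0 _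
    · rw [Fintype.sum_option]
      simp
    · intro o _
      cases o
      · exact hc
      · exact hpC _
  · have := hε i
    rw [inner_add_left]
    have e : ⟪x₀, ν i⟫ + ⟪∑ j, (sgn (ε j) * h j) • ν j, ν i⟫ - m i
        = ⟪∑ j, (sgn (ε j) * h j) • ν j, ν i⟫ - (m i - ⟪x₀, ν i⟫) := by ring
    rw [e]
    exact this

end Vale.Agent.Lib.P243
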