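import Mathlib

open MeasureTheory Set
open scoped ENNReal

namespace Vale.Agent.Lib.P243

lemma integral_sq_affine (p q a b : ℝ) :
    ∫ t in a..b, (p + q * t) ^ 2
      = p ^ 2 * (b - a) + p * q * (b ^ 2 - a ^ 2) + q ^ 2 * (b ^ 3 - a ^ 3) / 3 := by
  have hd : ∀ t ∈ uIcc a b, HasDerivAt (fun t : ℝ => p ^ 2 * t + p * q * t ^ 2 + q ^ 2 / 3 * t ^ 3)
      ((p + q * t) ^ 2) t := by
    intro t _
    have h1 := (hasDerivAt_id t).const_mul (p ^ 2)
    have h2 := (hasDerivAt_pow 2 t).const_mul (p * q)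
    have h3 := (hasDerivAt_pow 3 t).const_mul (q ^ 2 / 3)
    have h := (h1.add h2).add h3
    have hf : (fun t : ℝ => p ^ 2 * t + p * q * t ^ 2 + q ^ 2 / 3 * t ^ 3)
        = ((fun y => p ^ 2 * id y) + fun y => p * q * y ^ 2) + fun y => q ^ 2 / 3 * y ^ 3 := by
      ext y; simp
    rw [hf]
    exact h.congr_deriv (by norm_num; ring)
  rw [intervalIntegral.integral_eq_sub_of_hasDerivAt hd
    ((by fun_prop : Continuous fun t : ℝ => (p + q * t) ^ 2).intervalIntegrable a b)]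
  ring

lemma lintegral_sq_affine (p q : ℝ) {a b : ℝ} (hab : a ≤ b) :
    ∫⁻ t in Ioc a b, ENNReal.ofReal ((p + q * t) ^ 2)
      = ENNReal.ofReal (p ^ 2 * (b - a) + p * q * (b ^ 2 - a ^ 2) + q ^ 2 * (b ^ 3 - a ^ 3) / 3) := by
  rw [← integral_sq_affine, intervalIntegral.integral_of_le hab,
    ofReal_integral_eq_lintegral_ofReal]
  · have : Continuous fun t : ℝ => (p + q * t) ^ 2 := by fun_prop
    exact (this.integrableOn_Icc (a := a) (b := b)).mono_set Ioc_subset_Icc_self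
  · exact Filter.Eventually.of_forall fun t => sq_nonneg _

end Vale.Agent.Lib.P243
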