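import Mathlib
import Vale.Agent.Lib.P243.Bang

open Set
open scoped RealInnerProductSpace Pointwise

namespace Vale.Agent.Lib.P243

variable {E : Type*} [NormedAddCommGroup E] [InnerProductSpace ℝ E] [CompleteSpace E]

/-- A flat compact convex set (orthogonal to `n`) of width at least `w` in every direction
orthogonal to `n` has a chord of length `w` in every such direction. -/
lemma chord_of_width {C : Set E} (cC : Convex ℝ C) (kC : IsCompact C) {n : E} (hn : ‖n‖ = 1)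
    (flat : ∀ x ∈ C, ∀ y ∈ C, ⟪x - y, n⟫ = 0) {w : ℝ} (hw : 0 < w)
    (width : ∀ μ : E, ‖μ‖ = 1 → ⟪μ, n⟫ = 0 → ∃ x ∈ C, ∃ y ∈ C, w ≤ ⟪x - y, μ⟫)
    {ν : E} (hν : ‖ν‖ = 1) (hνn : ⟪ν, n⟫ = 0) : ∃ a ∈ C, a + w • ν ∈ C := by
  by_contra hcon
  push Not at hcon
  have hnot : w • ν ∉ C - C := by
    rintro ⟨x, hx, y, hy, hxy⟩
    apply hcon y hy
    have hxy' : x - y = w • ν := hxy
    have : y + w • ν = x := by rw [← hxy']; abel
    rw [this]; exact hx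
  obtain ⟨f, u, hf, hu⟩ := geometric_hahn_banach_closed_point (cC.sub cC) (by rw [sub_eq_add_neg]; exact (kC.add kC.neg).isClosed) hnot
  set z : E := (InnerProductSpace.toDual ℝ E).symm f with hz
  have hfz : ∀ x, f x = ⟪z, x⟫ := fun x => by
    rw [hz, InnerProductSpace.toDual_symm_apply]
  set z' : E := z - ⟪z, n⟫ • n with hz'
  have hz'n : ⟪z', n⟫ = 0 := by
    rw [hz', inner_sub_left, inner_smul_left, real_inner_self_eq_norm_sq, hn]
    simp
  have hzz' : ∀ b : E, ⟪b, n⟫ = 0 → ⟪z, b⟫ = ⟪z', b⟫ := by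
    intro b hb
    rw [hz', inner_sub_left, inner_smul_left, real_inner_comm b n, hb]
    simp
  obtain ⟨c, hc⟩ : C.Nonempty := by
    obtain ⟨x, hx, -⟩ := width ν hν hνn
    exact ⟨x, hx⟩
  have h0 : (0 : E) ∈ C - C := ⟨c, hc, c, hc, sub_self c⟩
  have hu0 : 0 < u := by simpa using hf 0 h0
  have hpos : 0 < ⟪z', w • ν⟫ := by
    rw [← hzz' (w • ν) (by rw [inner_smul_left, hνn]; simp), ← hfz]
    exact hu0.trans hu
  have hz'0 : z' ≠ 0 := by
    intro h; rw [h] at hpos; simp at hpos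
  have hnz : 0 < ‖z'‖ := norm_pos_iff.2 hz'0
  obtain ⟨x, hx, y, hy, hxy⟩ := width (‖z'‖⁻¹ • z') (by rw [norm_smul, norm_inv, norm_norm]; field_simp)
    (by rw [inner_smul_left, hz'n]; simp)
  have h1 : f (x - y) < f (w • ν) := (hf _ ⟨x, hx, y, hy, rfl⟩).trans hu
  rw [hfz, hfz, hzz' _ (flat x hx y hy), hzz' (w • ν) (by rw [inner_smul_left, hνn]; simp)] at h1
  rw [inner_smul_right, real_inner_comm] at hxy
  have h2 : w * ‖z'‖ ≤ ⟪z', x - y⟫ := by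
    have : w * ‖z'‖ ≤ (‖z'‖⁻¹ * ⟪z', x - y⟫) * ‖z'‖ := by gcongr
    calc w * ‖z'‖ ≤ (‖z'‖⁻¹ * ⟪z', x - y⟫) * ‖z'‖ := this
      _ = ⟪z', x - y⟫ := by field_simp
  have h3 : ⟪z', w • ν⟫ ≤ w * ‖z'‖ := by
    rw [inner_smul_right]
    have : ⟪z', ν⟫ ≤ ‖z'‖ * ‖ν‖ := real_inner_le_norm _ _
    rw [hν, mul_one] at this
    gcongr
  linarith

end Vale.Agent.Lib.P243
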