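import Mathlib

open MeasureTheory Set
open scoped ENNReal

namespace Vale.Agent.Lib.P243

/-- A point strictly between the infimum and supremum (in barycentric form) of an order-connected
bounded nonempty set of reals lies in the set. -/
lemma mem_of_bary {S : Set ℝ} (h : S.OrdConnected) (ne : S.Nonempty)
    (bb : BddBelow S) (ba : BddAbove S) {ρ : ℝ} (h0 : 0 < ρ) (h1 : ρ < 1) :
    sInf S + ρ * (sSup S - sInf S) ∈ S := by
  have hle : sInf S ≤ sSup S := Real.sInf_le_sSup S bb ba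
  rcases hle.eq_or_lt with heq | hlt
  · obtain ⟨a, ha⟩ := ne
    have h1 : sInf S ≤ a := csInf_le bb ha
    have h2 : a ≤ sSup S := le_csSup ba ha
    have : a = sInf S := le_antisymm (heq ▸ h2) h1
    rw [← heq]; simp only [sub_self, mul_zero, add_zero]; rw [← this]; exact ha
  · set x := sInf S + ρ * (sSup S - sInf S) with hx
    have hx1 : sInf S < x := by
      have : 0 < ρ * (sSup S - sInf S) := mul_pos h0 (sub_pos.2 hlt)
      linarith
    have hx2 : x < sSup S := by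
      have : ρ * (sSup S - sInf S) < 1 * (sSup S - sInf S) :=
        mul_lt_mul_of_pos_right h1 (sub_pos.2 hlt)
      linarith
    obtain ⟨a, ha, hax⟩ := exists_lt_of_csInf_lt ne hx1
    obtain ⟨b, hb, hxb⟩ := exists_lt_of_lt_csSup ne hx2
    exact h.out ha hb ⟨hax.le, hxb.le⟩

lemma volume_le_of_bdd {S : Set ℝ} (bb : BddBelow S) (ba : BddAbove S) :
    volume S ≤ ENNReal.ofReal (sSup S - sInf S) := by
  have : S ⊆ Icc (sInf S) (sSup S) := fun a ha => ⟨csInf_le bb ha, le_csSup ba ha⟩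
  calc volume S ≤ volume (Icc (sInf S) (sSup S)) := measure_mono this
    _ = ENNReal.ofReal (sSup S - sInf S) := Real.volume_Icc

/-- One-dimensional Brunn-Minkowski inequality for bounded intervals. -/
lemma one_dim {S₁ S₂ S : Set ℝ} (h₁ : S₁.OrdConnected) (h₂ : S₂.OrdConnected)
    (ne₁ : S₁.Nonempty) (ne₂ : S₂.Nonempty)
    (bb₁ : BddBelow S₁) (ba₁ : BddAbove S₁) (bb₂ : BddBelow S₂) (ba₂ : BddAbove S₂)
    {θ : ℝ} (hθ0 : 0 ≤ θ) (hθ1 : θ ≤ 1)
    (hS : ∀ x ∈ S₁, ∀ y ∈ S₂, (1 - θ) * x + θ * y ∈ S) :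
    ENNReal.ofReal (1 - θ) * volume S₁ + ENNReal.ofReal θ * volume S₂ ≤ volume S := by
  set i₁ := sInf S₁
  set s₁ := sSup S₁
  set i₂ := sInf S₂
  set s₂ := sSup S₂
  have hl₁ : i₁ ≤ s₁ := Real.sInf_le_sSup S₁ bb₁ ba₁
  have hl₂ : i₂ ≤ s₂ := Real.sInf_le_sSup S₂ bb₂ ba₂
  have hθ' : 0 ≤ 1 - θ := by linarith
  set i := (1 - θ) * i₁ + θ * i₂ with hi
  set s := (1 - θ) * s₁ + θ * s₂ with hs
  have hsub : Ioo i s ⊆ S := by
    intro z hz
    have hlt : i < s := hz.1.trans hz.2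
    set ρ := (z - i) / (s - i) with hρ
    have hρ0 : 0 < ρ := div_pos (sub_pos.2 hz.1) (sub_pos.2 hlt)
    have hρ1 : ρ < 1 := by
      rw [hρ, div_lt_one (sub_pos.2 hlt)]; linarith [hz.2]
    have hx := mem_of_bary h₁ ne₁ bb₁ ba₁ hρ0 hρ1
    have hy := mem_of_bary h₂ ne₂ bb₂ ba₂ hρ0 hρ1
    have := hS _ hx _ hy
    have hz' : z = i + ρ * (s - i) := by
      rw [hρ]; field_simp [(sub_pos.2 hlt).ne']; ring
    have e : (1 - θ) * (sInf S₁ + ρ * (sSup S₁ - sInf S₁)) + θ * (sInf S₂ + ρ * (sSup S₂ - sInf S₂))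
        = z := by
      rw [hz', hi, hs]; ring
    rwa [e] at this
  calc ENNReal.ofReal (1 - θ) * volume S₁ + ENNReal.ofReal θ * volume S₂
      ≤ ENNReal.ofReal (1 - θ) * ENNReal.ofReal (s₁ - i₁)
        + ENNReal.ofReal θ * ENNReal.ofReal (s₂ - i₂) := by
        gcongr
        · exact volume_le_of_bdd bb₁ ba₁
        · exact volume_le_of_bdd bb₂ ba₂
    _ = ENNReal.ofReal (s - i) := by
        rw [← ENNReal.ofReal_mul hθ', ← ENNReal.ofReal_mul hθ0,
          ← ENNReal.ofReal_add (mul_nonneg hθ' (sub_nonneg.2 hl₁)) (mul_nonneg hθ0 (sub_nonneg.2 hl₂))]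
        congr 1; rw [hi, hs]; ring
    _ = volume (Ioo i s) := Real.volume_Ioo.symm
    _ ≤ volume S := measure_mono hsub

end Vale.Agent.Lib.P243
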