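import Mathlib
import Vale.Agent.Lib.P243.OneDim

open MeasureTheory Set
open scoped ENNReal

namespace Vale.Agent.Lib.P243

variable {α : Type*} [NormedAddCommGroup α] [NormedSpace ℝ α]

/-- Length of the vertical section of `G` over `x`. -/
noncomputable def slen (G : Set (α × ℝ)) (x : α) : ℝ≥0∞ := volume (Prod.mk x ⁻¹' G)

lemma sec_ordConnected {G : Set (α × ℝ)} (cG : Convex ℝ G) (x : α) :
    (Prod.mk x ⁻¹' G).OrdConnected := by
  apply Convex.ordConnected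
  intro a ha b hb s t hs ht hst
  have := cG ha hb hs ht hst
  show (x, s • a + t • b) ∈ G
  convert this using 1
  ext
  · simp [← add_smul, hst]
  · simp

lemma sec_bdd {G : Set (α × ℝ)} (bG : Bornology.IsBounded G) (x : α) :
    BddBelow (Prod.mk x ⁻¹' G) ∧ BddAbove (Prod.mk x ⁻¹' G) := by
  obtain ⟨C, hC⟩ := bG.exists_norm_le
  have key : ∀ t ∈ Prod.mk x ⁻¹' G, |t| ≤ C := by
    intro t ht
    have h1 := hC (x, t) ht
    have h2 : ‖t‖ ≤ ‖(x, t)‖ := norm_snd_le (x, t)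
    rw [Real.norm_eq_abs] at h2
    exact h2.trans h1
  exact ⟨⟨-C, fun t ht => (abs_le.1 (key t ht)).1⟩, ⟨C, fun t ht => (abs_le.1 (key t ht)).2⟩⟩

lemma slen_ne_top {G : Set (α × ℝ)} (bG : Bornology.IsBounded G) (x : α) : slen G x ≠ ⊤ := by
  have h := sec_bdd bG x
  exact ((volume_le_of_bdd h.1 h.2).trans_lt ENNReal.ofReal_lt_top).ne

lemma exists_slen_le {G : Set (α × ℝ)} (bG : Bornology.IsBounded G) :
    ∃ C : ℝ, ∀ x, slen G x ≤ ENNReal.ofReal C := by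
  obtain ⟨C, hC⟩ := bG.exists_norm_le
  refine ⟨C - (-C), fun x => ?_⟩
  have key : Prod.mk x ⁻¹' G ⊆ Icc (-C) C := by
    intro t ht
    have h1 := hC (x, t) ht
    have h2 : ‖t‖ ≤ ‖(x, t)‖ := norm_snd_le (x, t)
    rw [Real.norm_eq_abs] at h2
    exact abs_le.1 (h2.trans h1)
  calc slen G x ≤ volume (Icc (-C) C) := measure_mono key
    _ = ENNReal.ofReal (C - (-C)) := Real.volume_Icc

lemma sec_nonempty_of_pos {G : Set (α × ℝ)} {x : α} (h : 0 < slen G x) :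
    (Prod.mk x ⁻¹' G).Nonempty := by
  by_contra hne
  rw [not_nonempty_iff_eq_empty] at hne
  simp [slen, hne] at h

/-- Sections of a Minkowski combination. -/
lemma slen_combo {P Q R : Set (α × ℝ)} (cP : Convex ℝ P) (cQ : Convex ℝ Q)
    (bP : Bornology.IsBounded P) (bQ : Bornology.IsBounded Q)
    {θ : ℝ} (hθ0 : 0 ≤ θ) (hθ1 : θ ≤ 1)
    (h : ∀ p ∈ P, ∀ q ∈ Q, (1 - θ) • p + θ • q ∈ R) {x x' : α}
    (hx : (Prod.mk x ⁻¹' P).Nonempty) (hx' : (Prod.mk x' ⁻¹' Q).Nonempty) :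
    ENNReal.ofReal (1 - θ) * slen P x + ENNReal.ofReal θ * slen Q x'
      ≤ slen R ((1 - θ) • x + θ • x') := by
  apply one_dim (sec_ordConnected cP x) (sec_ordConnected cQ x') hx hx'
    (sec_bdd bP x).1 (sec_bdd bP x).2 (sec_bdd bQ x').1 (sec_bdd bQ x').2 hθ0 hθ1
  intro a ha b hb
  have := h (x, a) ha (x', b) hb
  simpa using this

/-- Superlevel sets of the section length. -/
def Lev (G : Set (α × ℝ)) (t : ℝ) : Set α := {x | ENNReal.ofReal t ≤ slen G x}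

lemma sec_nonempty_of_mem_Lev {G : Set (α × ℝ)} {t : ℝ} (ht : 0 < t) {x : α} (hx : x ∈ Lev G t) :
    (Prod.mk x ⁻¹' G).Nonempty :=
  sec_nonempty_of_pos (lt_of_lt_of_le (ENNReal.ofReal_pos.2 ht) hx)

lemma Lev_combo {P Q R : Set (α × ℝ)} (cP : Convex ℝ P) (cQ : Convex ℝ Q)
    (bP : Bornology.IsBounded P) (bQ : Bornology.IsBounded Q)
    {θ : ℝ} (hθ0 : 0 ≤ θ) (hθ1 : θ ≤ 1)
    (h : ∀ p ∈ P, ∀ q ∈ Q, (1 - θ) • p + θ • q ∈ R) {s t : ℝ} (hs : 0 ≤ s) (ht : 0 ≤ t) {x x' : α}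
    (nx : (Prod.mk x ⁻¹' P).Nonempty) (nx' : (Prod.mk x' ⁻¹' Q).Nonempty)
    (hx : x ∈ Lev P s) (hx' : x' ∈ Lev Q t) :
    (1 - θ) • x + θ • x' ∈ Lev R ((1 - θ) * s + θ * t) := by
  have h1 := slen_combo cP cQ bP bQ hθ0 hθ1 h nx nx'
  have hθ' : 0 ≤ 1 - θ := by linarith
  show ENNReal.ofReal ((1 - θ) * s + θ * t) ≤ slen R ((1 - θ) • x + θ • x')
  refine le_trans ?_ h1
  rw [ENNReal.ofReal_add (mul_nonneg hθ' hs) (mul_nonneg hθ0 ht), ENNReal.ofReal_mul hθ',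
    ENNReal.ofReal_mul hθ0]
  gcongr
  · exact hx
  · exact hx'

lemma Lev_convex {P : Set (α × ℝ)} (cP : Convex ℝ P) (bP : Bornology.IsBounded P) {t : ℝ}
    (ht : 0 < t) : Convex ℝ (Lev P t) := by
  intro x hx y hy a b ha hb hab
  have hP : ∀ p ∈ P, ∀ q ∈ P, (1 - b) • p + b • q ∈ P := by
    intro p hp q hq
    exact cP hp hq (by linarith) hb (by linarith)
  have := Lev_combo cP cP bP bP hb (by linarith) hP ht.le ht.le
    (sec_nonempty_of_mem_Lev ht hx) (sec_nonempty_of_mem_Lev ht hy) hx hy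
  have e1 : (1 - b) * t + b * t = t := by ring
  have e2 : a = 1 - b := by linarith
  rw [e1] at this
  rw [e2]; exact this

lemma Lev_subset_fst {P : Set (α × ℝ)} {t : ℝ} (ht : 0 < t) : Lev P t ⊆ Prod.fst '' P := by
  intro x hx
  obtain ⟨a, ha⟩ := sec_nonempty_of_mem_Lev ht hx
  exact ⟨(x, a), ha, rfl⟩

lemma Lev_antitone (P : Set (α × ℝ)) : Antitone (Lev P) := by
  intro s t hst x hx
  exact le_trans (ENNReal.ofReal_le_ofReal hst) hx

end Vale.Agent.Lib.P243
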