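import Mathlib
import Vale.Agent.Lib.P243.Sections

open MeasureTheory Set
open scoped ENNReal

namespace Vale.Agent.Lib.P243

/-- Section lengths of a planar convex set dominate a linear interpolation from zero. -/
lemma slen_tent {G : Set (ℝ × ℝ)} (cG : Convex ℝ G) (bG : Bornology.IsBounded G) {a b θ : ℝ}
    (h0 : 0 ≤ θ) (h1 : θ ≤ 1) (na : (Prod.mk a ⁻¹' G).Nonempty) (nb : (Prod.mk b ⁻¹' G).Nonempty) :
    ENNReal.ofReal θ * slen G b ≤ slen G ((1 - θ) * a + θ * b) := by
  have h := slen_combo cG cG bG bG h0 h1 (R := G)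
    (fun p hp q hq => cG hp hq (by linarith) h0 (by ring)) na nb
  simp only [smul_eq_mul] at h
  exact le_trans le_add_self h

/-- Hermite-Hadamard at the midpoint: the area of a planar compact convex set is at most its
extent times the length of its middle section. -/
lemma volume_le_mid {G : Set (ℝ × ℝ)} (cG : Convex ℝ G) (kG : IsCompact G) {t₀ t₁ : ℝ}
    (hrange : ∀ p ∈ G, t₀ ≤ p.1 ∧ p.1 ≤ t₁)
    (hne : ∀ t ∈ Icc t₀ t₁, (Prod.mk t ⁻¹' G).Nonempty) :
    volume G ≤ ENNReal.ofReal (t₁ - t₀) * slen G ((t₀ + t₁) / 2) := by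
  have bG := kG.isBounded
  have hm : Measurable (slen G) := measurable_measure_prodMk_left kG.measurableSet
  have hvol : volume G = ∫⁻ t, slen G t := by
    rw [Measure.volume_eq_prod, Measure.prod_apply kG.measurableSet]
    rfl
  have hrefl : ∫⁻ t, slen G (t₀ + t₁ - t) = ∫⁻ t, slen G t :=
    lintegral_sub_left_eq_self (slen G) (t₀ + t₁)
  set c : ℝ≥0∞ := ENNReal.ofReal (1 / 2) with hc
  have hcc : c + c = 1 := by
    rw [hc, ← ENNReal.ofReal_add (by norm_num) (by norm_num)]
    norm_num
  have hsplit : ∫⁻ t, slen G t = ∫⁻ t, (c * slen G t + c * slen G (t₀ + t₁ - t)) := by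
    have hm' : Measurable (fun t => slen G (t₀ + t₁ - t)) :=
      hm.comp (measurable_const.sub measurable_id)
    rw [lintegral_add_left (hm.const_mul c), lintegral_const_mul c hm,
      lintegral_const_mul c hm', hrefl, ← add_mul, hcc, one_mul]
  have hpt : ∀ t, c * slen G t + c * slen G (t₀ + t₁ - t)
      ≤ (Icc t₀ t₁).indicator (fun _ => slen G ((t₀ + t₁) / 2)) t := by
    intro t
    by_cases ht : t ∈ Icc t₀ t₁
    · rw [indicator_of_mem ht]
      have ht' : t₀ + t₁ - t ∈ Icc t₀ t₁ := ⟨by linarith [ht.2], by linarith [ht.1]⟩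
      have h := slen_combo cG cG bG bG (θ := 1 / 2) (by norm_num) (by norm_num) (R := G)
        (fun p hp q hq => cG hp hq (by norm_num) (by norm_num) (by norm_num)) (hne t ht)
        (hne _ ht')
      simp only [smul_eq_mul] at h
      have e1 : (1 - 1 / 2 : ℝ) = 1 / 2 := by norm_num
      have e2 : (1 / 2 : ℝ) * t + 1 / 2 * (t₀ + t₁ - t) = (t₀ + t₁) / 2 := by ring
      rw [e1, e2] at h
      exact h
    · rw [indicator_of_notMem ht]
      have z1 : slen G t = 0 := by
        have : Prod.mk t ⁻¹' G = ∅ := by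
          ext s
          simp only [mem_preimage, mem_empty_iff_false, iff_false]
          intro hs
          exact ht (hrange _ hs)
        simp [slen, this]
      have z2 : slen G (t₀ + t₁ - t) = 0 := by
        have : Prod.mk (t₀ + t₁ - t) ⁻¹' G = ∅ := by
          ext s
          simp only [mem_preimage, mem_empty_iff_false, iff_false]
          intro hs
          have := hrange _ hs
          exact ht ⟨by linarith [this.2], by linarith [this.1]⟩
        simp [slen, this]
      simp [z1, z2]
  calc volume G = ∫⁻ t, (c * slen G t + c * slen G (t₀ + t₁ - t)) := by rw [hvol, hsplit]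
    _ ≤ ∫⁻ t, (Icc t₀ t₁).indicator (fun _ => slen G ((t₀ + t₁) / 2)) t := lintegral_mono hpt
    _ = ENNReal.ofReal (t₁ - t₀) * slen G ((t₀ + t₁) / 2) := by
        rw [lintegral_indicator measurableSet_Icc, setLIntegral_const, Real.volume_Icc, mul_comm]

end Vale.Agent.Lib.P243
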