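import Mathlib
import Vale.Agent.Lib.P243.Bang

open Set MeasureTheory Metric
open scoped RealInnerProductSpace ENNReal

namespace Vale.Agent.Lib.P243

variable {E : Type*} [NormedAddCommGroup E] [InnerProductSpace ℝ E]

/-- Finitely many grid cells contained in a set have total length at most its measure. -/
lemma card_cells_le {U : Set ℝ} {δ : ℝ} (_hδ : 0 < δ) (Z : Finset ℤ)
    (hZ : ∀ k ∈ Z, Ico ((k : ℝ) * δ) (((k : ℝ) + 1) * δ) ⊆ U) :
    ENNReal.ofReal (Z.card * δ) ≤ volume U := by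
  have hpd : Pairwise (Function.onFun Disjoint
      (fun k : ℤ => Ico ((k : ℝ) * δ) (((k : ℝ) + 1) * δ))) := by
    have := pairwise_disjoint_Ico_zsmul δ
    simpa [zsmul_eq_mul] using this
  have hdisj : (Z : Set ℤ).PairwiseDisjoint (fun k : ℤ => Ico ((k : ℝ) * δ) (((k : ℝ) + 1) * δ)) :=
    fun i _ j _ hij => hpd hij
  have h1 : volume (⋃ k ∈ Z, Ico ((k : ℝ) * δ) (((k : ℝ) + 1) * δ))
      = ∑ k ∈ Z, volume (Ico ((k : ℝ) * δ) (((k : ℝ) + 1) * δ)) :=
    measure_biUnion_finset hdisj (fun k _ => measurableSet_Ico)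
  have h2 : ∀ k : ℤ, volume (Ico ((k : ℝ) * δ) (((k : ℝ) + 1) * δ)) = ENNReal.ofReal δ := by
    intro k
    rw [Real.volume_Ico]; congr 1; ring
  calc ENNReal.ofReal (Z.card * δ) = ∑ k ∈ Z, ENNReal.ofReal δ := by
        rw [Finset.sum_const, nsmul_eq_mul, ENNReal.ofReal_mul (by positivity),
          ENNReal.ofReal_natCast]
    _ = volume (⋃ k ∈ Z, Ico ((k : ℝ) * δ) (((k : ℝ) + 1) * δ)) := by
        rw [h1]; exact Finset.sum_congr rfl (fun k _ => (h2 k).symm)
    _ ≤ volume U := measure_mono (iUnion₂_subset hZ)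

/-- Bang's theorem for generalised strips: if a compact convex set with chords of length `w` in
the directions `ν i` is covered by the sets `{x | ⟪x, ν i⟫ ∈ S i}`, then the total length of the
sets `S i` is at least `w`. -/
theorem strips_bound {ι : Type*} [Fintype ι] {C : Set E} (cC : Convex ℝ C) (kC : IsCompact C)
    (neC : C.Nonempty) (ν : ι → E) (hν : ∀ i, ‖ν i‖ = 1) {w : ℝ} (hw : 0 < w)
    (chord : ∀ i, ∃ a ∈ C, a + w • ν i ∈ C) (S : ι → Set ℝ)
    (cover : ∀ x ∈ C, ∃ i, ⟪x, ν i⟫ ∈ S i) : ENNReal.ofReal w ≤ ∑ i, volume (S i) := by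
  classical
  by_contra hlt
  push Not at hlt
  have hfin : ∀ i, volume (S i) ≠ ⊤ := by
    intro i
    have h1 : ∑ i, volume (S i) < ⊤ := hlt.trans ENNReal.ofReal_lt_top
    exact (ENNReal.sum_lt_top.1 h1 i (Finset.mem_univ i)).ne
  set N : ℝ := (Fintype.card ι : ℝ) + 1 with hN
  have hNpos : 0 < N := by positivity
  set T : ℝ := ∑ i, (volume (S i)).toReal with hT
  have hT0 : 0 ≤ T := Finset.sum_nonneg (fun i _ => ENNReal.toReal_nonneg)
  have hTe : ENNReal.ofReal T = ∑ i, volume (S i) := by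
    rw [hT, ENNReal.ofReal_sum_of_nonneg (fun i _ => ENNReal.toReal_nonneg)]
    exact Finset.sum_congr rfl (fun i _ => ENNReal.ofReal_toReal (hfin i))
  have hTw : T < w := by
    rw [← hTe] at hlt
    exact (ENNReal.ofReal_lt_ofReal_iff hw).1 hlt
  set η : ℝ := (w - T) / (2 * N) with hη
  have hηpos : 0 < η := div_pos (by linarith) (by positivity)
  have hU : ∀ i, ∃ U, S i ⊆ U ∧ IsOpen U ∧ volume U < volume (S i) + ENNReal.ofReal η :=
    fun i => (S i).exists_isOpen_lt_add (hfin i) (by simpa using hηpos)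
  choose U hSU hUo hUv using hU
  set T' : ℝ := T + Fintype.card ι * η with hT'
  have hT'w : T' < w := by
    have h1 : (Fintype.card ι : ℝ) * η ≤ N * η := by
      apply mul_le_mul_of_nonneg_right _ hηpos.le
      rw [hN]; linarith
    have h2 : N * η = (w - T) / 2 := by
      rw [hη]; field_simp
    rw [hT']; linarith
  have hT'0 : 0 ≤ T' := by positivity
  have hUsum : ∑ i, volume (U i) ≤ ENNReal.ofReal T' := by
    calc ∑ i, volume (U i) ≤ ∑ i, (volume (S i) + ENNReal.ofReal η) :=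
          Finset.sum_le_sum (fun i _ => (hUv i).le)
      _ = ENNReal.ofReal T' := by
          rw [Finset.sum_add_distrib, ← hTe, Finset.sum_const, Finset.card_univ, nsmul_eq_mul,
            hT', ENNReal.ofReal_add hT0 (by positivity), ENNReal.ofReal_mul (by positivity),
            ENNReal.ofReal_natCast]
  -- Lebesgue number
  have hopen : ∀ i, IsOpen {x : E | ⟪x, ν i⟫ ∈ U i} := fun i =>
    (hUo i).preimage (by fun_prop)
  have hcov : C ⊆ ⋃ i, {x : E | ⟪x, ν i⟫ ∈ U i} := by
    intro x hx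
    obtain ⟨i, hi⟩ := cover x hx
    exact mem_iUnion.2 ⟨i, hSU i hi⟩
  obtain ⟨δ, hδ, hball⟩ := lebesgue_number_lemma_of_metric kC hopen hcov
  set d : ℝ := δ / 2 with hd
  have hdpos : 0 < d := by positivity
  obtain ⟨R, hR⟩ := kC.isBounded.exists_norm_le
  set Mz : ℤ := ⌈R / d⌉ + 1 with hMz
  set Z : ι → Finset ℤ := fun i =>
    (Finset.Icc (-Mz) Mz).filter (fun k => Icc ((k : ℝ) * d) (((k : ℝ) + 1) * d) ⊆ U i) with hZ
  set J : Finset (Σ _ : ι, ℤ) := Finset.univ.sigma Z with hJ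
  set cnt : ℝ := (J.card : ℝ) with hcnt
  have hcnt0 : 0 ≤ cnt := by positivity
  have hcntle : cnt * d ≤ T' := by
    have h1 : ∀ i, ENNReal.ofReal ((Z i).card * d) ≤ volume (U i) := by
      intro i
      apply card_cells_le hdpos
      intro k hk
      exact Ico_subset_Icc_self.trans (Finset.mem_filter.1 hk).2
    have h2 : ENNReal.ofReal (∑ i, ((Z i).card : ℝ) * d) ≤ ENNReal.ofReal T' := by
      rw [ENNReal.ofReal_sum_of_nonneg (fun i _ => by positivity)]
      exact (Finset.sum_le_sum (fun i _ => h1 i)).trans hUsum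
    have h3 := (ENNReal.ofReal_le_ofReal_iff hT'0).1 h2
    have h4 : cnt = ∑ i, ((Z i).card : ℝ) := by
      rw [hcnt, hJ, Finset.card_sigma]; push_cast; rfl
    rw [h4, Finset.sum_mul]; exact h3
  set κ : ℝ := (w - cnt * d) / (2 * (cnt + 1)) with hκ
  have hκpos : 0 < κ := div_pos (by linarith) (by positivity)
  have hsum : 2 * ∑ _p : J, (d / 2 + κ) ≤ w := by
    rw [Finset.sum_const, Finset.card_univ, Fintype.card_coe, nsmul_eq_mul]
    have h1 : 2 * (cnt + 1) * κ = w - cnt * d := by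
      rw [hκ]; field_simp
    have h2 : 2 * cnt * κ ≤ 2 * (cnt + 1) * κ := by nlinarith
    show 2 * (cnt * (d / 2 + κ)) ≤ w
    nlinarith
  obtain ⟨x, hxC, hx⟩ := bang_chord cC neC (fun p : J => ν p.1.1) (fun p => hν _)
    (fun _ => d / 2 + κ) (fun _ => by positivity) (fun p => ((p.1.2 : ℝ) + 1 / 2) * d) hw hsum
    (fun p => chord _)
  obtain ⟨i, hi⟩ := hball x hxC
  set s : ℝ := ⟪x, ν i⟫ with hs
  set k : ℤ := ⌊s / d⌋ with hk
  have hk1 : (k : ℝ) * d ≤ s := by
    have := Int.floor_le (s / d)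
    rw [← hk] at this
    calc (k : ℝ) * d ≤ s / d * d := by gcongr
      _ = s := by field_simp
  have hk2 : s < ((k : ℝ) + 1) * d := by
    have := Int.lt_floor_add_one (s / d)
    rw [← hk] at this
    calc s = s / d * d := by field_simp
      _ < ((k : ℝ) + 1) * d := by gcongr
  have hsR : |s| ≤ R := by
    have h1 : |s| ≤ ‖x‖ * ‖ν i‖ := abs_real_inner_le_norm _ _
    rw [hν i, mul_one] at h1
    exact h1.trans (hR x hxC)
  have hmem : (⟨i, k⟩ : Σ _ : ι, ℤ) ∈ J := by
    rw [hJ, Finset.mem_sigma]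
    refine ⟨Finset.mem_univ _, ?_⟩
    rw [hZ]
    refine Finset.mem_filter.2 ⟨Finset.mem_Icc.2 ⟨?_, ?_⟩, ?_⟩
    · have h1 : -(R / d) ≤ s / d := by
        rw [← neg_div]; gcongr; exact (abs_le.1 hsR).1
      have h2 : s / d < (k : ℝ) + 1 := by
        have := Int.lt_floor_add_one (s / d); rwa [← hk] at this
      have h3 : R / d ≤ (⌈R / d⌉ : ℝ) := Int.le_ceil _
      have h4 : (-(⌈R / d⌉ : ℝ) - 1) < (k : ℝ) := by linarith
      have h5 : -⌈R / d⌉ - 1 < k := by exact_mod_cast h4
      show -Mz ≤ k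
      rw [hMz]; omega
    · have h1 : s / d ≤ R / d := by
        gcongr; exact (abs_le.1 hsR).2
      have h2 : (k : ℝ) ≤ s / d := by
        have := Int.floor_le (s / d); rwa [← hk] at this
      have h3 : R / d ≤ (⌈R / d⌉ : ℝ) := Int.le_ceil _
      have h4 : (k : ℝ) ≤ (⌈R / d⌉ : ℝ) := by linarith
      have h5 : k ≤ ⌈R / d⌉ := by exact_mod_cast h4
      show k ≤ Mz
      rw [hMz]; omega
    · intro s' hs'
      have habs : |s' - s| < δ := by
        rw [abs_lt]
        have e : ((k : ℝ) + 1) * d = (k : ℝ) * d + d := by ring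
        have hdd : d < δ := by rw [hd]; linarith
        constructor
        · linarith [hs'.1]
        · linarith [hs'.2]
      have hx' : x + (s' - s) • ν i ∈ ball x δ := by
        rw [mem_ball, dist_eq_norm, add_sub_cancel_left, norm_smul, hν i, mul_one,
          Real.norm_eq_abs]
        exact habs
      have := hi hx'
      have e : ⟪x + (s' - s) • ν i, ν i⟫ = s' := by
        rw [inner_add_left, inner_smul_left, real_inner_self_eq_norm_sq, hν i, ← hs]
        simp
      have h' : ⟪x + (s' - s) • ν i, ν i⟫ ∈ U i := this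
      rw [e] at h'
      exact h'
  have hfinal := hx ⟨⟨i, k⟩, hmem⟩
  have hle : |s - ((k : ℝ) + 1 / 2) * d| ≤ d / 2 := by
    rw [abs_le]
    constructor
    · nlinarith
    · nlinarith
  have : d / 2 + κ ≤ d / 2 := hfinal.trans hle
  linarith

end Vale.Agent.Lib.P243
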