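import Mathlib
import Vale.Agent.Lib.P243.Chord
import Vale.Agent.Lib.P243.Strips
import Vale.Agent.Lib.P243.Planar

open Set MeasureTheory
open scoped RealInnerProductSpace ENNReal

namespace Vale.Agent.Lib.P243

variable {E : Type*} [NormedAddCommGroup E] [InnerProductSpace ℝ E] [CompleteSpace E]

/-- The image of `K` in the coordinates `(⟪x, n⟫, ⟪x, ν⟫)`. -/
def img (n ν : E) (K : Set E) : Set (ℝ × ℝ) := (fun x => ((⟪x, n⟫ : ℝ), (⟪x, ν⟫ : ℝ))) '' K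

omit [CompleteSpace E] in
lemma img_convex (n ν : E) {K : Set E} (cK : Convex ℝ K) : Convex ℝ (img n ν K) := by
  rintro _ ⟨x, hx, rfl⟩ _ ⟨y, hy, rfl⟩ a b ha hb hab
  refine ⟨a • x + b • y, cK hx hy ha hb hab, ?_⟩
  ext <;> simp [inner_add_left, inner_smul_left]

omit [CompleteSpace E] in
lemma img_compact (n ν : E) {K : Set E} (kK : IsCompact K) : IsCompact (img n ν K) :=
  kK.image (by fun_prop)

/-- Bang's theorem in one plane section. -/
theorem section_bound {K : Set E} (cK : Convex ℝ K) (kK : IsCompact K) {n : E} (hn : ‖n‖ = 1)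
    {t w : ℝ} (hw : 0 < w)
    (width : ∀ μ : E, ‖μ‖ = 1 → ⟪μ, n⟫ = 0 → ENNReal.ofReal w ≤ slen (img n μ K) t)
    {ι : Type*} [Fintype ι] [Nonempty ι] (ν : ι → E) (hν : ∀ i, ‖ν i‖ = 1) (hνn : ∀ i, ⟪ν i, n⟫ = 0)
    (D : ι → Set (ℝ × ℝ)) (cover : ∀ x ∈ K, ∃ i, ((⟪x, n⟫ : ℝ), (⟪x, ν i⟫ : ℝ)) ∈ D i) :
    ENNReal.ofReal w ≤ ∑ i, slen (D i) t := by
  set C : Set E := K ∩ {x | ⟪x, n⟫ = t} with hC
  have cC : Convex ℝ C := by
    apply cK.inter
    intro x hx y hy a b _ _ hab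
    have hx' : ⟪x, n⟫ = t := hx
    have hy' : ⟪y, n⟫ = t := hy
    show ⟪a • x + b • y, n⟫ = t
    rw [inner_add_left, inner_smul_left, inner_smul_left, hx', hy']
    simp only [conj_trivial]
    rw [← add_mul, hab, one_mul]
  have kC : IsCompact C := by
    apply kK.inter_right
    exact isClosed_eq (by fun_prop) continuous_const
  have flat : ∀ x ∈ C, ∀ y ∈ C, ⟪x - y, n⟫ = 0 := by
    intro x hx y hy
    have hx' : ⟪x, n⟫ = t := hx.2
    have hy' : ⟪y, n⟫ = t := hy.2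
    rw [inner_sub_left, hx', hy', sub_self]
  have hsec : ∀ μ : E, Prod.mk t ⁻¹' (img n μ K) = (fun x => (⟪x, μ⟫ : ℝ)) '' C := by
    intro μ
    ext s
    constructor
    · rintro ⟨x, hx, hxe⟩
      have h1 : ⟪x, n⟫ = t := congrArg Prod.fst hxe
      have h2 : ⟪x, μ⟫ = s := congrArg Prod.snd hxe
      exact ⟨x, ⟨hx, h1⟩, h2⟩
    · rintro ⟨x, ⟨hx, h1⟩, h2⟩
      have h1' : ⟪x, n⟫ = t := h1
      have h2' : ⟪x, μ⟫ = s := h2
      exact ⟨x, hx, by show ((⟪x, n⟫ : ℝ), (⟪x, μ⟫ : ℝ)) = (t, s); rw [h1', h2']⟩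
  have width' : ∀ μ : E, ‖μ‖ = 1 → ⟪μ, n⟫ = 0 → ∃ x ∈ C, ∃ y ∈ C, w ≤ ⟪x - y, μ⟫ := by
    intro μ h1 h2
    have h3 := width μ h1 h2
    unfold slen at h3
    rw [hsec μ] at h3
    set I : Set ℝ := (fun x => (⟪x, μ⟫ : ℝ)) '' C with hI
    have kI : IsCompact I := kC.image (by fun_prop)
    have neI : I.Nonempty := by
      by_contra hne
      rw [not_nonempty_iff_eq_empty] at hne
      rw [hne, measure_empty] at h3
      have : 0 < ENNReal.ofReal w := ENNReal.ofReal_pos.2 hw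
      exact absurd h3 (not_le.2 this)
    have h4 := h3.trans (volume_le_of_bdd kI.bddBelow kI.bddAbove)
    have h5 : w ≤ sSup I - sInf I := by
      by_contra hlt
      push Not at hlt
      exact absurd h4 (not_le.2 ((ENNReal.ofReal_lt_ofReal_iff hw).2 hlt))
    obtain ⟨x, hx, hxe⟩ := kI.sSup_mem neI
    obtain ⟨y, hy, hye⟩ := kI.sInf_mem neI
    refine ⟨x, hx, y, hy, ?_⟩
    have hxe' : ⟪x, μ⟫ = sSup I := hxe
    have hye' : ⟪y, μ⟫ = sInf I := hye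
    rw [inner_sub_left, hxe', hye']
    exact h5
  have neC : C.Nonempty := by
    obtain ⟨i⟩ := ‹Nonempty ι›
    obtain ⟨x, hx, -⟩ := width' (ν i) (hν i) (hνn i)
    exact ⟨x, hx⟩
  have chord : ∀ i, ∃ a ∈ C, a + w • ν i ∈ C := fun i =>
    chord_of_width cC kC hn flat hw width' (hν i) (hνn i)
  apply strips_bound cC kC neC ν hν hw chord (fun i => Prod.mk t ⁻¹' (D i))
  intro x hx
  obtain ⟨i, hi⟩ := cover x hx.1
  have hx' : ⟪x, n⟫ = t := hx.2
  rw [hx'] at hi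
  exact ⟨i, hi⟩

end Vale.Agent.Lib.P243
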