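import Mathlib
import Vale.Agent.Lib.P243.SectionBound

open Set MeasureTheory
open scoped RealInnerProductSpace ENNReal

namespace Vale.Agent.Lib.P243

variable {E : Type*} [NormedAddCommGroup E] [InnerProductSpace ℝ E] [CompleteSpace E]

/-- Coplanar axes, coordinate form. -/
theorem coplanar_core {K : Set E} (cK : Convex ℝ K) (kK : IsCompact K) {n : E} (hn : ‖n‖ = 1)
    {t₀ t₁ : ℝ} (h01 : t₀ < t₁) {x₀ x₁ : E} (hx₀ : x₀ ∈ K) (hx₁ : x₁ ∈ K)
    (e₀ : ⟪x₀, n⟫ = t₀) (e₁ : ⟪x₁, n⟫ = t₁) (hrange : ∀ x ∈ K, t₀ ≤ ⟪x, n⟫ ∧ ⟪x, n⟫ ≤ t₁)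
    {A : ℝ} (hA : ∀ μ : E, ‖μ‖ = 1 → ⟪μ, n⟫ = 0 → ENNReal.ofReal A ≤ volume (img n μ K))
    {ι : Type*} [Fintype ι] [Nonempty ι] (ν : ι → E) (hν : ∀ i, ‖ν i‖ = 1) (hνn : ∀ i, ⟪ν i, n⟫ = 0)
    (D : ι → Set (ℝ × ℝ)) (cover : ∀ x ∈ K, ∃ i, ((⟪x, n⟫ : ℝ), (⟪x, ν i⟫ : ℝ)) ∈ D i) :
    ENNReal.ofReal A ≤ 2 * ∑ i, volume (D i) := by
  rcases le_or_gt A 0 with hA0 | hA0
  · rw [ENNReal.ofReal_of_nonpos hA0]; exact bot_le
  set h : ℝ := (t₁ - t₀) / 2 with hh
  have hhpos : 0 < h := by rw [hh]; linarith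
  have hne0 : t₁ - t₀ ≠ 0 := by
    have : 0 < t₁ - t₀ := by linarith
    exact this.ne'
  set tm : ℝ := (t₀ + t₁) / 2 with htm
  set ms : ℝ := A / (t₁ - t₀) with hms
  have hmspos : 0 < ms := div_pos hA0 (by linarith)
  -- sections are nonempty
  have hne : ∀ μ : E, ∀ t ∈ Icc t₀ t₁, (Prod.mk t ⁻¹' (img n μ K)).Nonempty := by
    intro μ t ht
    set θ : ℝ := (t - t₀) / (t₁ - t₀) with hθ
    have hθ0 : 0 ≤ θ := div_nonneg (by linarith [ht.1]) (by linarith)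
    have hθ1 : θ ≤ 1 := by rw [hθ, div_le_one (by linarith)]; linarith [ht.2]
    have hmem : (1 - θ) • x₀ + θ • x₁ ∈ K := cK hx₀ hx₁ (by linarith) hθ0 (by ring)
    refine ⟨⟪(1 - θ) • x₀ + θ • x₁, μ⟫, (1 - θ) • x₀ + θ • x₁, hmem, ?_⟩
    have : ⟪(1 - θ) • x₀ + θ • x₁, n⟫ = t := by
      rw [inner_add_left, inner_smul_left, inner_smul_left, e₀, e₁]
      simp only [conj_trivial]
      rw [hθ]; field_simp; ring
    show ((⟪(1 - θ) • x₀ + θ • x₁, n⟫ : ℝ), _) = _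
    rw [this]
  have hrange' : ∀ μ : E, ∀ p ∈ img n μ K, t₀ ≤ p.1 ∧ p.1 ≤ t₁ := by
    rintro μ _ ⟨x, hx, rfl⟩
    exact hrange x hx
  -- the middle section is long
  have hmid : ∀ μ : E, ‖μ‖ = 1 → ⟪μ, n⟫ = 0 → ENNReal.ofReal ms ≤ slen (img n μ K) tm := by
    intro μ h1 h2
    have h3 := (hA μ h1 h2).trans
      (volume_le_mid (img_convex n μ cK) (img_compact n μ kK) (hrange' μ) (hne μ))
    have e : ENNReal.ofReal A = ENNReal.ofReal (t₁ - t₀) * ENNReal.ofReal ms := by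
      rw [← ENNReal.ofReal_mul (by linarith), hms]
      congr 1; field_simp
    rw [e] at h3
    exact (ENNReal.mul_le_mul_iff_right (by simpa using h01) ENNReal.ofReal_ne_top).1 h3
  have htmI : tm ∈ Icc t₀ t₁ := ⟨by rw [htm]; linarith, by rw [htm]; linarith⟩
  -- width at an intermediate level
  have hlev : ∀ a ∈ Icc t₀ t₁, ∀ θ : ℝ, 0 ≤ θ → θ ≤ 1 → ∀ μ : E, ‖μ‖ = 1 → ⟪μ, n⟫ = 0 →
      ENNReal.ofReal (θ * ms) ≤ slen (img n μ K) ((1 - θ) * a + θ * tm) := by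
    intro a ha θ h0 h1 μ hμ1 hμ2
    have h3 := slen_tent (img_convex n μ cK) (img_compact n μ kK).isBounded h0 h1 (hne μ a ha)
      (hne μ tm htmI)
    refine le_trans ?_ h3
    rw [ENNReal.ofReal_mul h0]
    gcongr
    exact hmid μ hμ1 hμ2
  -- measurable hulls
  set D' : ι → Set (ℝ × ℝ) := fun i => toMeasurable volume (D i) with hD'
  have mD' : ∀ i, MeasurableSet (D' i) := fun i => measurableSet_toMeasurable _ _
  have cover' : ∀ x ∈ K, ∃ i, ((⟪x, n⟫ : ℝ), (⟪x, ν i⟫ : ℝ)) ∈ D' i := by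
    intro x hx
    obtain ⟨i, hi⟩ := cover x hx
    exact ⟨i, subset_toMeasurable _ _ hi⟩
  set g : ℝ → ℝ≥0∞ := fun t => ∑ i, slen (D' i) t with hg
  have mg : Measurable g := by
    apply Finset.measurable_sum
    intro i _
    exact measurable_measure_prodMk_left (mD' i)
  have hgint : ∑ i, volume (D i) = ∫⁻ t, g t := by
    show ∑ i, volume (D i) = ∫⁻ t, ∑ i, slen (D' i) t
    rw [lintegral_finsetSum (f := fun i t => slen (D' i) t) Finset.univ
      (fun i _ => measurable_measure_prodMk_left (mD' i))]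
    apply Finset.sum_congr rfl
    intro i _
    have h1 : volume (D i) = volume (D' i) := (measure_toMeasurable (D i)).symm
    have h2 : volume (D' i) = ∫⁻ t, volume (Prod.mk t ⁻¹' (D' i)) := by
      rw [Measure.volume_eq_prod, Measure.prod_apply (mD' i)]
    rw [h1, h2]
    rfl
  have hgl : ∀ a ∈ Icc t₀ t₁, ∀ θ : ℝ, 0 ≤ θ → θ ≤ 1 →
      ENNReal.ofReal (θ * ms) ≤ g ((1 - θ) * a + θ * tm) := by
    intro a ha θ h0 h1
    rcases h0.eq_or_lt with h0' | h0'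
    · rw [← h0']; simp
    · exact section_bound cK kK hn (mul_pos h0' hmspos) (hlev a ha θ h0 h1) ν hν hνn D' cover'
  -- integration
  set f₁ : ℝ → ℝ≥0∞ := fun r => (Ico t₀ tm).indicator g (t₀ + r) with hf₁
  set f₂ : ℝ → ℝ≥0∞ := fun r => (Ico tm t₁).indicator g (tm + r) with hf₂
  have mf₁ : Measurable f₁ := (mg.indicator measurableSet_Ico).comp (measurable_const.add measurable_id)
  have i₁ : ∫⁻ r, f₁ r = ∫⁻ t in Ico t₀ tm, g t := by
    rw [hf₁, lintegral_add_left_eq_self (fun t => (Ico t₀ tm).indicator g t) t₀,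
      lintegral_indicator measurableSet_Ico]
  have i₂ : ∫⁻ r, f₂ r = ∫⁻ t in Ico tm t₁, g t := by
    rw [hf₂, lintegral_add_left_eq_self (fun t => (Ico tm t₁).indicator g t) tm,
      lintegral_indicator measurableSet_Ico]
  have hdisj : Disjoint (Ico t₀ tm) (Ico tm t₁) := by
    rw [Set.disjoint_left]
    intro t h1 h2
    exact absurd h1.2 (not_lt.2 h2.1)
  have hsum : (∫⁻ r, f₁ r) + (∫⁻ r, f₂ r) ≤ ∫⁻ t, g t := by
    rw [i₁, i₂, ← lintegral_union measurableSet_Ico hdisj]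
    exact setLIntegral_le_lintegral _ _
  have hpt : ∀ r, (Ico 0 h).indicator (fun _ => ENNReal.ofReal ms) r ≤ f₁ r + f₂ r := by
    intro r
    by_cases hr : r ∈ Ico 0 h
    · rw [indicator_of_mem hr]
      have m₁ : t₀ + r ∈ Ico t₀ tm := ⟨by linarith [hr.1], by rw [htm]; rw [hh] at hr; linarith [hr.2]⟩
      have m₂ : tm + r ∈ Ico tm t₁ := ⟨by linarith [hr.1], by rw [htm]; rw [hh] at hr; linarith [hr.2]⟩
      simp only [hf₁, hf₂]
      rw [indicator_of_mem m₁, indicator_of_mem m₂]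
      have hθ0 : 0 ≤ r / h := div_nonneg hr.1 hhpos.le
      have hθ1 : r / h ≤ 1 := by rw [div_le_one hhpos]; exact hr.2.le
      have b₁ := hgl t₀ ⟨le_rfl, h01.le⟩ (r / h) hθ0 hθ1
      have b₂ := hgl t₁ ⟨h01.le, le_rfl⟩ (1 - r / h) (by linarith) (by linarith)
      have c₁ : (1 - r / h) * t₀ + r / h * tm = t₀ + r := by
        have : tm = t₀ + h := by rw [htm, hh]; ring
        rw [this]; field_simp; ring
      have c₂ : (1 - (1 - r / h)) * t₁ + (1 - r / h) * tm = tm + r := by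
        have : t₁ = tm + h := by rw [htm, hh]; ring
        rw [this]; field_simp; ring
      rw [c₁] at b₁
      rw [c₂] at b₂
      calc ENNReal.ofReal ms = ENNReal.ofReal (r / h * ms) + ENNReal.ofReal ((1 - r / h) * ms) := by
            rw [← ENNReal.ofReal_add (by positivity)
              (mul_nonneg (by linarith) hmspos.le)]
            congr 1; ring
        _ ≤ g (t₀ + r) + g (tm + r) := add_le_add b₁ b₂
    · rw [indicator_of_notMem hr]; exact bot_le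
  have hfin : ENNReal.ofReal h * ENNReal.ofReal ms ≤ ∫⁻ t, g t := by
    calc ENNReal.ofReal h * ENNReal.ofReal ms
        = ∫⁻ r, (Ico 0 h).indicator (fun _ => ENNReal.ofReal ms) r := by
          rw [lintegral_indicator measurableSet_Ico, setLIntegral_const, Real.volume_Ico, sub_zero,
            mul_comm]
      _ ≤ ∫⁻ r, (f₁ r + f₂ r) := lintegral_mono hpt
      _ = (∫⁻ r, f₁ r) + (∫⁻ r, f₂ r) := lintegral_add_left mf₁ _
      _ ≤ ∫⁻ t, g t := hsum
  rw [hgint]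
  calc ENNReal.ofReal A = 2 * (ENNReal.ofReal h * ENNReal.ofReal ms) := by
        rw [← ENNReal.ofReal_mul hhpos.le]
        have : (2 : ℝ≥0∞) = ENNReal.ofReal 2 := by simp
        rw [this, ← ENNReal.ofReal_mul (by norm_num)]
        congr 1
        rw [hh, hms]; field_simp
    _ ≤ 2 * ∫⁻ t, g t := by gcongr

end Vale.Agent.Lib.P243
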