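import Mathlib

open MeasureTheory Measure Set
open scoped ENNReal

namespace Vale.Agent.Lib.P243

/-- Euclidean three-space. -/
abbrev E3 : Type := EuclideanSpace ℝ (Fin 3)

/-- Planar area of a subset of three-space: the two-dimensional Euclidean Hausdorff measure
(normalised to agree with Lebesgue measure on planes). -/
noncomputable def area (S : Set E3) : ℝ≥0∞ := μHE[2] S

/-- The plane through the origin orthogonal to `u`. -/
def plane (u : E3) : Set E3 := ((ℝ ∙ u)ᗮ : Submodule ℝ E3)

/-- The orthogonal projection of `K` onto the plane orthogonal to `u`. -/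
noncomputable def shadow (u : E3) (K : Set E3) : Set E3 := (ℝ ∙ u)ᗮ.starProjection '' K

/-- The cylinder `B + ℝ u`. -/
def cylinder (u : E3) (B : Set E3) : Set E3 := {x | ∃ b ∈ B, ∃ t : ℝ, x = b + t • u}

/-- Convex bodies: compact convex sets with nonempty interior. -/
def IsConvexBody (K : Set E3) : Prop := Convex ℝ K ∧ IsCompact K ∧ (interior K).Nonempty

/-- The cylinders `B i + ℝ (u i)`, with unit axis vectors and bases in the orthogonal planes,
cover `K`. -/
def IsCylinderCover (K : Set E3) {m : ℕ} (u : Fin m → E3) (B : Fin m → Set E3) : Prop :=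
  (∀ i, ‖u i‖ = 1) ∧ (∀ i, B i ⊆ plane (u i)) ∧ K ⊆ ⋃ i, cylinder (u i) (B i)

/-- The relative base area of one cylinder: base area over the area of the projection of `K`
along the axis. -/
noncomputable def relBase (K : Set E3) (u : E3) (B : Set E3) : ℝ≥0∞ := area B / area (shadow u K)

/-- The smallest area of an orthogonal projection of `K` onto a plane. -/
noncomputable def minShadowArea (K : Set E3) : ℝ≥0∞ := ⨅ v : E3, ⨅ _ : ‖v‖ = 1, area (shadow v K)

/-- The vectors `u` and `w` span the same line. -/
def SameLine (u w : E3) : Prop := (ℝ ∙ u : Submodule ℝ E3) = ℝ ∙ w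

end Vale.Agent.Lib.P243
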