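import Mathlib
import Vale.Agent.Lib.P243.Defs

open scoped ENNReal

namespace Vale.Agent.Lib.P243

/-- The smallest area of an orthogonal projection of `K` along a unit direction orthogonal
to `n`. -/
noncomputable def minShadowAreaIn (n : E3) (K : Set E3) : ℝ≥0∞ :=
  ⨅ v : E3, ⨅ _ : ‖v‖ = 1 ∧ inner ℝ v n = 0, area (shadow v K)

end Vale.Agent.Lib.P243
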