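import Mathlib
import Vale.Agent.Lib.P243.Defs

open Set MeasureTheory Measure Module
open scoped RealInnerProductSpace ENNReal

namespace Vale.Agent.Lib.P243

/-- Completion of an orthonormal pair of `ℝ³` to an orthonormal frame. -/
lemma exists_frame {n v : E3} (hn : ‖n‖ = 1) (hv : ‖v‖ = 1) (hnv : ⟪v, n⟫ = 0) :
    ∃ ν : E3, ‖ν‖ = 1 ∧ ⟪ν, n⟫ = 0 ∧ ⟪ν, v⟫ = 0 ∧
      ∀ x : E3, x = ⟪x, n⟫ • n + ⟪x, ν⟫ • ν + ⟪x, v⟫ • v := by
  have hon : Orthonormal ℝ (({0, 2} : Set (Fin 3)).domRestrict ![n, 0, v]) := by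
    rw [orthonormal_iff_ite]
    rintro ⟨i, hi⟩ ⟨j, hj⟩
    have hi' : i = 0 ∨ i = 2 := by simpa using hi
    have hj' : j = 0 ∨ j = 2 := by simpa using hj
    rcases hi' with rfl | rfl <;> rcases hj' with rfl | rfl
    · simp [Set.domRestrict, hn]
    · have : ⟪n, v⟫ = 0 := by rw [real_inner_comm]; exact hnv
      simp [Set.domRestrict, this]
    · simp [Set.domRestrict, hnv]
    · simp [Set.domRestrict, hv]
  obtain ⟨b, hb⟩ := hon.exists_orthonormalBasis_extension_of_card_eq (by simp)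
  have b0 : b 0 = n := by simpa using hb 0 (by simp)
  have b2 : b 2 = v := by simpa using hb 2 (by simp)
  have hbo := b.orthonormal
  refine ⟨b 1, hbo.1 1, ?_, ?_, ?_⟩
  · rw [← b0]; exact hbo.2 (by decide)
  · rw [← b2]; exact hbo.2 (by decide)
  · intro x
    have := b.sum_repr' x
    rw [Fin.sum_univ_three, b0, b2] at this
    rw [real_inner_comm n x, real_inner_comm (b 1) x, real_inner_comm v x]
    exact this.symm

/-- The plane spanned by an orthonormal pair carries the Lebesgue area. -/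
lemma area_image {n ν : E3} (hn : ‖n‖ = 1) (hν : ‖ν‖ = 1) (hnν : ⟪ν, n⟫ = 0) (T : Set (ℝ × ℝ)) :
    area ((fun p : ℝ × ℝ => p.1 • n + p.2 • ν) '' T) = volume T := by
  let e2 : EuclideanSpace ℝ (Fin 2) ≃ᵐ ℝ × ℝ :=
    (MeasurableEquiv.toLp 2 (Fin 2 → ℝ)).symm.trans MeasurableEquiv.finTwoArrow
  have he2 : MeasurePreserving e2 volume volume :=
    (EuclideanSpace.volume_preserving_symm_measurableEquiv_toLp (Fin 2)).trans
      (volume_preserving_finTwoArrow ℝ)
  have he2a : ∀ z, e2 z = (z 0, z 1) := fun z => rfl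
  let j : EuclideanSpace ℝ (Fin 2) → E3 := fun z => z 0 • n + z 1 • ν
  have hj : Isometry j := by
    apply Isometry.of_dist_eq
    intro a b
    rw [dist_eq_norm, dist_eq_norm]
    have e : j a - j b = (a - b) 0 • n + (a - b) 1 • ν := by
      simp only [j, PiLp.sub_apply, sub_smul]; abel
    rw [e]
    have h1 : ‖(a - b) 0 • n + (a - b) 1 • ν‖ ^ 2 = ‖a - b‖ ^ 2 := by
      rw [norm_add_sq_real, EuclideanSpace.real_norm_sq_eq (a - b), Fin.sum_univ_two, norm_smul,
        norm_smul, hn, hν, inner_smul_left, inner_smul_right, real_inner_comm, hnν]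
      simp
    exact (pow_left_inj₀ (norm_nonneg _) (norm_nonneg _) (by norm_num)).1 h1
  have himg : (fun p : ℝ × ℝ => p.1 • n + p.2 • ν) '' T = j '' (e2 ⁻¹' T) := by
    ext x
    constructor
    · rintro ⟨p, hp, rfl⟩
      refine ⟨e2.symm p, by simpa using hp, ?_⟩
      have := he2a (e2.symm p)
      rw [e2.apply_symm_apply] at this
      have h1 : p.1 = (e2.symm p) 0 := congrArg Prod.fst this
      have h2 : p.2 = (e2.symm p) 1 := congrArg Prod.snd this
      show (e2.symm p) 0 • n + (e2.symm p) 1 • ν = p.1 • n + p.2 • ν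
      rw [h1, h2]
    · rintro ⟨z, hz, rfl⟩
      exact ⟨e2 z, hz, rfl⟩
  unfold area
  rw [himg, hj.euclideanHausdorffMeasure_image, EuclideanSpace.euclideanHausdorffMeasure_eq_volume,
    he2.measure_preimage_equiv]

end Vale.Agent.Lib.P243
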