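import Mathlib
import Vale.Agent.Lib.P243.Defs

open MeasureTheory Measure Set Module
open scoped ENNReal

namespace Vale.Agent.Lib.P243

/-- The projection of a convex body onto a plane has positive and finite area. -/
theorem shadow_area_pos_lt_top {K : Set E3} (hK : IsConvexBody K) {v : E3} (hv : ‖v‖ = 1) :
    0 < area (shadow v K) ∧ area (shadow v K) < ⊤ := by
  have hv0 : v ≠ 0 := by
    intro h; rw [h, norm_zero] at hv; exact zero_ne_one hv
  have hfin : finrank ℝ ((ℝ ∙ v)ᗮ : Submodule ℝ E3) = 2 := by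
    have : Fact (finrank ℝ E3 = 2 + 1) := ⟨by simp⟩
    exact Submodule.finrank_orthogonal_span_singleton hv0
  have hHaar : (μHE[2] : Measure ((ℝ ∙ v)ᗮ : Submodule ℝ E3)).IsAddHaarMeasure := by
    rw [← hfin]; infer_instance
  have hiso : Isometry (fun y : ((ℝ ∙ v)ᗮ : Submodule ℝ E3) => (y : E3)) :=
    (ℝ ∙ v)ᗮ.subtypeₗᵢ.isometry
  set S : Set ((ℝ ∙ v)ᗮ : Submodule ℝ E3) := (ℝ ∙ v)ᗮ.orthogonalProjectionOnto '' K with hS
  have e : shadow v K = (fun y : ((ℝ ∙ v)ᗮ : Submodule ℝ E3) => (y : E3)) '' S := by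
    rw [hS, image_image]; rfl
  have ea : area (shadow v K) = μHE[2] S := by
    unfold area
    rw [e, hiso.euclideanHausdorffMeasure_image]
  rw [ea]
  constructor
  · have hopen : IsOpenMap ((ℝ ∙ v)ᗮ.orthogonalProjectionOnto) := by
      apply ContinuousLinearMap.isOpenMap
      intro y
      exact ⟨(y : E3), by simp⟩
    have h1 : IsOpen ((ℝ ∙ v)ᗮ.orthogonalProjectionOnto '' interior K) :=
      hopen _ isOpen_interior
    have h2 : ((ℝ ∙ v)ᗮ.orthogonalProjectionOnto '' interior K).Nonempty := hK.2.2.image _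
    exact lt_of_lt_of_le (h1.measure_pos _ h2) (measure_mono (image_mono interior_subset))
  · have : IsCompact S := hK.2.1.image ((ℝ ∙ v)ᗮ.orthogonalProjectionOnto).continuous
    exact this.measure_lt_top

end Vale.Agent.Lib.P243
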