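import Mathlib
import Vale.Agent.Lib.P243.Defs2
import Vale.Agent.Lib.P243.Frame
import Vale.Agent.Lib.P243.CoplanarCore
import Vale.Agent.Lib.P243.ShadowArea

open Set MeasureTheory Measure Module Metric
open scoped RealInnerProductSpace ENNReal

namespace Vale.Agent.Lib.P243

lemma minShadowArea_le_in (n : E3) (K : Set E3) : minShadowArea K ≤ minShadowAreaIn n K := by
  unfold minShadowArea minShadowAreaIn
  refine le_iInf fun v => le_iInf fun hv => ?_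
  exact iInf₂_le v hv.1

/-- The shadow along `v` in the coordinates of a frame `(n, μ, v)`. -/
lemma shadow_subset {n μ v : E3} (hvn : ⟪v, n⟫ = 0) (hvμ : ⟪v, μ⟫ = 0)
    (hfr : ∀ x : E3, x = ⟪x, n⟫ • n + ⟪x, μ⟫ • μ + ⟪x, v⟫ • v) (K : Set E3) :
    shadow v K ⊆ (fun p : ℝ × ℝ => p.1 • n + p.2 • μ) '' (img n μ K) := by
  rintro _ ⟨x, hx, rfl⟩
  refine ⟨(⟪x, n⟫, ⟪x, μ⟫), ⟨x, hx, rfl⟩, ?_⟩
  have hmem : ⟪x, n⟫ • n + ⟪x, μ⟫ • μ ∈ (ℝ ∙ v)ᗮ := by
    rw [Submodule.mem_orthogonal_singleton_iff_inner_right, inner_add_right, inner_smul_right,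
      inner_smul_right, hvn, hvμ]
    simp
  conv_rhs => rw [hfr x]
  rw [map_add, map_smul, Submodule.starProjection_orthogonalComplement_singleton_eq_zero,
    smul_zero, add_zero]
  exact (Submodule.starProjection_eq_self_iff.2 hmem).symm

/-- Bang's half-area inequality for cylinders whose axes are parallel to a common plane. -/
theorem coplanar_axes {K : Set E3} {m : ℕ} {u : Fin m → E3} {B : Fin m → Set E3}
    (hK : IsConvexBody K) (hC : IsCylinderCover K u B) {n : E3} (hn : ‖n‖ = 1)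
    (hpar : ∀ i, ⟪u i, n⟫ = 0) : minShadowAreaIn n K ≤ 2 * ∑ i, area (B i) := by
  obtain ⟨cK, kK, iK⟩ := hK
  obtain ⟨hu, hB, hcov⟩ := hC
  obtain ⟨c, hc⟩ := iK
  have hcK : c ∈ K := interior_subset hc
  have hne : Nonempty (Fin m) := by
    obtain ⟨i, -⟩ := mem_iUnion.1 (hcov hcK)
    exact ⟨i⟩
  -- finiteness of the infimum
  have hfin : minShadowAreaIn n K ≠ ⊤ := by
    obtain ⟨i⟩ := hne
    have h1 : minShadowAreaIn n K ≤ area (shadow (u i) K) := iInf₂_le (u i) ⟨hu i, hpar i⟩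
    exact (h1.trans_lt (shadow_area_pos_lt_top ⟨cK, kK, ⟨c, hc⟩⟩ (hu i)).2).ne
  set A : ℝ := (minShadowAreaIn n K).toReal with hA
  have hAe : ENNReal.ofReal A = minShadowAreaIn n K := ENNReal.ofReal_toReal hfin
  -- extent in the direction n
  have hcont : ContinuousOn (fun x : E3 => (⟪x, n⟫ : ℝ)) K := by fun_prop
  obtain ⟨x₀, hx₀, hmin⟩ := kK.exists_isMinOn ⟨c, hcK⟩ hcont
  obtain ⟨x₁, hx₁, hmax⟩ := kK.exists_isMaxOn ⟨c, hcK⟩ hcont
  have hrange : ∀ x ∈ K, ⟪x₀, n⟫ ≤ ⟪x, n⟫ ∧ ⟪x, n⟫ ≤ ⟪x₁, n⟫ := fun x hx => ⟨hmin hx, hmax hx⟩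
  have h01 : ⟪x₀, n⟫ < ⟪x₁, n⟫ := by
    obtain ⟨r, hr, hball⟩ := Metric.isOpen_iff.1 isOpen_interior c hc
    have hp : c + (r / 2) • n ∈ K := by
      apply interior_subset; apply hball
      rw [mem_ball, dist_eq_norm, add_sub_cancel_left, norm_smul, hn, mul_one, Real.norm_eq_abs,
        abs_of_pos (by positivity)]
      linarith
    have h1 := (hrange _ hp).2
    have h2 := (hrange _ hcK).1
    rw [inner_add_left, inner_smul_left, real_inner_self_eq_norm_sq, hn] at h1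
    simp only [conj_trivial] at h1
    nlinarith
  -- frames
  have hfr : ∀ i, ∃ ν : E3, ‖ν‖ = 1 ∧ ⟪ν, n⟫ = 0 ∧ ⟪ν, u i⟫ = 0 ∧
      ∀ x : E3, x = ⟪x, n⟫ • n + ⟪x, ν⟫ • ν + ⟪x, u i⟫ • u i := fun i =>
    exists_frame hn (hu i) (hpar i)
  choose ν hν hνn hνu hνx using hfr
  set D : Fin m → Set (ℝ × ℝ) := fun i => {p | p.1 • n + p.2 • ν i ∈ B i} with hD
  have hDB : ∀ i, volume (D i) ≤ area (B i) := by
    intro i
    rw [← area_image hn (hν i) (hνn i) (D i)]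
    apply measure_mono
    rintro _ ⟨p, hp, rfl⟩
    exact hp
  have cover : ∀ x ∈ K, ∃ i, ((⟪x, n⟫ : ℝ), (⟪x, ν i⟫ : ℝ)) ∈ D i := by
    intro x hx
    obtain ⟨i, b, hb, τ, rfl⟩ := mem_iUnion.1 (hcov hx)
    refine ⟨i, ?_⟩
    have hbu : ⟪b, u i⟫ = 0 := by
      have := Submodule.mem_orthogonal_singleton_iff_inner_left.1 (hB i hb)
      exact this
    have e1 : ⟪b + τ • u i, n⟫ = ⟪b, n⟫ := by
      rw [inner_add_left, inner_smul_left, hpar i]; simp
    have e2 : ⟪b + τ • u i, ν i⟫ = ⟪b, ν i⟫ := by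
      rw [inner_add_left, inner_smul_left, real_inner_comm (ν i) (u i), hνu i]; simp
    show ⟪b + τ • u i, n⟫ • n + ⟪b + τ • u i, ν i⟫ • ν i ∈ B i
    rw [e1, e2]
    have := hνx i b
    rw [hbu, zero_smul, add_zero] at this
    rw [← this]; exact hb
  have hAμ : ∀ μ : E3, ‖μ‖ = 1 → ⟪μ, n⟫ = 0 → ENNReal.ofReal A ≤ volume (img n μ K) := by
    intro μ h1 h2
    obtain ⟨v, hv, hvn, hvμ, hvx⟩ := exists_frame hn h1 h2
    have hvx' : ∀ x : E3, x = ⟪x, n⟫ • n + ⟪x, μ⟫ • μ + ⟪x, v⟫ • v := by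
      intro x
      have := hvx x
      rw [add_right_comm] at this
      exact this
    rw [hAe, ← area_image hn h1 h2 (img n μ K)]
    calc minShadowAreaIn n K ≤ area (shadow v K) := iInf₂_le v ⟨hv, hvn⟩
      _ ≤ _ := measure_mono (shadow_subset hvn hvμ hvx' K)
  have hcore := coplanar_core cK kK hn h01 hx₀ hx₁ rfl rfl hrange hAμ ν hν hνn D cover
  rw [hAe] at hcore
  refine hcore.trans ?_
  gcongr with i _
  exact hDB i

end Vale.Agent.Lib.P243
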