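import Mathlib

open MeasureTheory Set
open scoped ENNReal

namespace Vale.Agent.Lib.P243

/-- Linear change of variables on the positive half line for lower Lebesgue integrals. -/
lemma lintegral_Ioi_scale (F : ℝ → ℝ≥0∞) {M : ℝ} (hM : 0 < M) :
    ∫⁻ t in Ioi (0:ℝ), F t = ENNReal.ofReal M * ∫⁻ l in Ioi (0:ℝ), F (M * l) := by
  have h1 : ∫⁻ l in Ioi (0:ℝ), F (M * l) = ∫⁻ l, (Ioi (0:ℝ)).indicator F (M * l) := by
    rw [← lintegral_indicator measurableSet_Ioi]
    congr 1; ext l
    by_cases hl : 0 < l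
    · have : 0 < M * l := mul_pos hM hl
      simp [indicator, hl, this]
    · have : ¬ 0 < M * l := by
        push Not at hl ⊢
        exact mul_nonpos_of_nonneg_of_nonpos hM.le hl
      simp [indicator, hl, this]
  have h2 : ∫⁻ l, (Ioi (0:ℝ)).indicator F (M * l)
      = ∫⁻ t, (Ioi (0:ℝ)).indicator F t ∂(Measure.map (fun x => M * x) volume) := by
    have := lintegral_map_equiv (μ := (volume : Measure ℝ)) ((Ioi (0:ℝ)).indicator F)
      (MeasurableEquiv.mulLeft₀ M hM.ne')
    simpa using this.symm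
  rw [h1, h2, Real.map_volume_mul_left hM.ne', lintegral_smul_measure,
    lintegral_indicator measurableSet_Ioi, smul_eq_mul, ← mul_assoc, abs_of_pos (inv_pos.2 hM),
    ← ENNReal.ofReal_mul hM.le, mul_inv_cancel₀ hM.ne', ENNReal.ofReal_one, one_mul]

/-- Layer-cake formula for a finite-valued measurable `ℝ≥0∞`-valued function. -/
lemma lintegral_layer {α : Type*} [MeasurableSpace α] (μ : Measure α) {f : α → ℝ≥0∞}
    (hf : Measurable f) (hfin : ∀ x, f x ≠ ⊤) :
    ∫⁻ x, f x ∂μ = ∫⁻ t in Ioi (0:ℝ), μ {x | ENNReal.ofReal t ≤ f x} := by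
  have h1 : ∫⁻ x, f x ∂μ = ∫⁻ x, ENNReal.ofReal ((f x).toReal) ∂μ := by
    congr 1; ext x; rw [ENNReal.ofReal_toReal (hfin x)]
  rw [h1, lintegral_eq_lintegral_meas_le μ (Filter.Eventually.of_forall fun x => ENNReal.toReal_nonneg)
    hf.ennreal_toReal.aemeasurable]
  apply setLIntegral_congr_fun measurableSet_Ioi
  intro t _
  have : {a | t ≤ (f a).toReal} = {x | ENNReal.ofReal t ≤ f x} := by
    ext x
    simp only [mem_setOf_eq]
    exact (ENNReal.ofReal_le_iff_le_toReal (hfin x)).symm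
  simp only [this]

end Vale.Agent.Lib.P243
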