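import Mathlib
import Vale.Agent.Lib.P243.Layer
import Vale.Agent.Lib.P243.Sections

open MeasureTheory Set
open scoped ENNReal

namespace Vale.Agent.Lib.P243

lemma measurable_slen {α : Type*} [NormedAddCommGroup α] [MeasurableSpace α]
    {G : Set (α × ℝ)} (hG : MeasurableSet G) : Measurable (slen G) :=
  measurable_measure_prodMk_left hG

/-- area of a planar set as a scaled layer-cake integral -/
lemma volume_eq_layer {G : Set (ℝ × ℝ)} (hG : MeasurableSet G) (bG : Bornology.IsBounded G)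
    {M : ℝ} (hM : 0 < M) :
    volume G = ENNReal.ofReal M * ∫⁻ l in Ioi (0:ℝ), volume (Lev G (M * l)) := by
  rw [Measure.volume_eq_prod, Measure.prod_apply hG]
  have := lintegral_layer (volume : Measure ℝ) (measurable_slen hG) (slen_ne_top bG)
  unfold slen at this
  rw [this, lintegral_Ioi_scale _ hM]
  rfl

/-- supremum of section lengths -/
noncomputable def smax (G : Set (ℝ × ℝ)) : ℝ := (⨆ x, slen G x).toReal

lemma iSup_slen_ne_top {G : Set (ℝ × ℝ)} (bG : Bornology.IsBounded G) : (⨆ x, slen G x) ≠ ⊤ := by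
  obtain ⟨C, hC⟩ := exists_slen_le bG
  exact ((iSup_le hC).trans_lt ENNReal.ofReal_lt_top).ne

lemma smax_pos {G : Set (ℝ × ℝ)} (hG : MeasurableSet G) (bG : Bornology.IsBounded G)
    (pG : 0 < volume G) : 0 < smax G := by
  rw [smax, ENNReal.toReal_pos_iff]
  refine ⟨?_, lt_top_iff_ne_top.2 (iSup_slen_ne_top bG)⟩
  by_contra hcon
  have h0 : ∀ x, slen G x = 0 := by
    intro x
    have : slen G x ≤ ⨆ x, slen G x := le_iSup (slen G) x
    exact le_antisymm (le_trans this (not_lt.1 hcon)) bot_le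
  rw [Measure.volume_eq_prod, Measure.prod_apply hG] at pG
  have : ∫⁻ x, volume (Prod.mk x ⁻¹' G) = 0 := by
    simp only [slen] at h0
    simp [h0]
  simp [this] at pG

lemma Lev_nonempty_of_lt {G : Set (ℝ × ℝ)} (bG : Bornology.IsBounded G) {t : ℝ} (h0 : 0 ≤ t)
    (ht : t < smax G) : (Lev G t).Nonempty := by
  have : ENNReal.ofReal t < ⨆ x, slen G x :=
    (ENNReal.ofReal_lt_iff_lt_toReal h0 (iSup_slen_ne_top bG)).2 ht
  obtain ⟨x, hx⟩ := lt_iSup_iff.1 this
  exact ⟨x, hx.le⟩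

lemma Lev_eq_empty_of_gt {G : Set (ℝ × ℝ)} (bG : Bornology.IsBounded G) {t : ℝ}
    (ht : smax G < t) : Lev G t = ∅ := by
  rw [eq_empty_iff_forall_notMem]
  intro x hx
  have h1 : slen G x ≤ ⨆ x, slen G x := le_iSup (slen G) x
  have h2 : (⨆ x, slen G x) < ENNReal.ofReal t :=
    (ENNReal.lt_ofReal_iff_toReal_lt (iSup_slen_ne_top bG)).2 ht
  exact absurd (lt_of_le_of_lt (le_trans hx h1) h2) (lt_irrefl _)

lemma Lev_bdd {G : Set (ℝ × ℝ)} (bG : Bornology.IsBounded G) {t : ℝ} (ht : 0 < t) :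
    BddBelow (Lev G t) ∧ BddAbove (Lev G t) := by
  have hb : Bornology.IsBounded (Prod.fst '' G) := by
    obtain ⟨C, hC⟩ := bG.exists_norm_le
    refine (Metric.isBounded_closedBall (x := (0:ℝ)) (r := C)).subset ?_
    rintro _ ⟨p, hp, rfl⟩
    simp only [Metric.mem_closedBall, dist_zero_right]
    exact (norm_fst_le p).trans (hC p hp)
  have hb' := hb.subset (Lev_subset_fst (P := G) ht)
  exact ⟨hb'.bddBelow, hb'.bddAbove⟩

/-- The key integral inequality behind the planar Brunn-Minkowski inequality. -/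
lemma bm_core {P Q R : Set (ℝ × ℝ)} (hP : MeasurableSet P) (hQ : MeasurableSet Q)
    (hR : MeasurableSet R) (cP : Convex ℝ P) (cQ : Convex ℝ Q)
    (bP : Bornology.IsBounded P) (bQ : Bornology.IsBounded Q) (bR : Bornology.IsBounded R)
    (pP : 0 < volume P) (pQ : 0 < volume Q)
    {θ : ℝ} (hθ0 : 0 ≤ θ) (hθ1 : θ ≤ 1)
    (h : ∀ p ∈ P, ∀ q ∈ Q, (1 - θ) • p + θ • q ∈ R) :
    ENNReal.ofReal ((1 - θ) * smax P + θ * smax Q) *
      (ENNReal.ofReal (1 - θ) * (∫⁻ l in Ioi (0:ℝ), volume (Lev P (smax P * l)))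
        + ENNReal.ofReal θ * (∫⁻ l in Ioi (0:ℝ), volume (Lev Q (smax Q * l)))) ≤ volume R := by
  have mP := smax_pos hP bP pP
  have mQ := smax_pos hQ bQ pQ
  have hθ' : 0 ≤ 1 - θ := by linarith
  have mbar : 0 < (1 - θ) * smax P + θ * smax Q := by
    rcases hθ0.eq_or_lt with h0 | h0
    · rw [← h0]; simpa using mP
    · have := mul_pos h0 mQ
      have := mul_nonneg hθ' mP.le
      linarith
  rw [volume_eq_layer hR bR mbar]
  gcongr
  have meas1 : Measurable fun l : ℝ => ENNReal.ofReal (1 - θ) * volume (Lev P (smax P * l)) := by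
    apply Measurable.const_mul
    apply Antitone.measurable
    intro a b hab
    exact measure_mono (Lev_antitone P (mul_le_mul_of_nonneg_left hab mP.le))
  have e1 : ENNReal.ofReal (1 - θ) * (∫⁻ l in Ioi (0:ℝ), volume (Lev P (smax P * l)))
        + ENNReal.ofReal θ * (∫⁻ l in Ioi (0:ℝ), volume (Lev Q (smax Q * l)))
      = ∫⁻ l in Ioi (0:ℝ), (ENNReal.ofReal (1 - θ) * volume (Lev P (smax P * l))
        + ENNReal.ofReal θ * volume (Lev Q (smax Q * l))) := by
    rw [lintegral_add_left meas1, lintegral_const_mul' _ _ ENNReal.ofReal_ne_top,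
      lintegral_const_mul' _ _ ENNReal.ofReal_ne_top]
  rw [e1]
  apply lintegral_mono_ae
  have hne : ∀ᵐ l : ℝ ∂(volume.restrict (Ioi (0:ℝ))), l ≠ 1 := by
    apply ae_restrict_of_ae
    have := (Set.countable_singleton (1:ℝ)).ae_notMem (volume : Measure ℝ)
    filter_upwards [this] with l hl
    simpa using hl
  filter_upwards [hne, ae_restrict_mem measurableSet_Ioi] with l hl1 hl0
  have hl0' : (0:ℝ) < l := hl0
  rcases lt_or_gt_of_ne hl1 with hlt | hgt
  · -- l < 1 : both level sets are nonempty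
    have tP : 0 < smax P * l := mul_pos mP hl0'
    have tQ : 0 < smax Q * l := mul_pos mQ hl0'
    have nP : (Lev P (smax P * l)).Nonempty :=
      Lev_nonempty_of_lt bP tP.le (by nlinarith)
    have nQ : (Lev Q (smax Q * l)).Nonempty :=
      Lev_nonempty_of_lt bQ tQ.le (by nlinarith)
    apply one_dim (Lev_convex cP bP tP).ordConnected (Lev_convex cQ bQ tQ).ordConnected nP nQ
      (Lev_bdd bP tP).1 (Lev_bdd bP tP).2 (Lev_bdd bQ tQ).1 (Lev_bdd bQ tQ).2 hθ0 hθ1
    intro x hx y hy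
    have := Lev_combo cP cQ bP bQ hθ0 hθ1 h tP.le tQ.le
      (sec_nonempty_of_mem_Lev tP hx) (sec_nonempty_of_mem_Lev tQ hy) hx hy
    have e : (1 - θ) * (smax P * l) + θ * (smax Q * l) = ((1 - θ) * smax P + θ * smax Q) * l := by
      ring
    rw [e] at this
    simpa using this
  · have eP : Lev P (smax P * l) = ∅ := Lev_eq_empty_of_gt bP (by nlinarith)
    have eQ : Lev Q (smax Q * l) = ∅ := Lev_eq_empty_of_gt bQ (by nlinarith)
    simp [eP, eQ]

/-- An elementary inequality (Cauchy-Schwarz). -/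
lemma cs_ineq {a b p q m n : ℝ} (ha : 0 ≤ a) (hb : 0 ≤ b) (hp : 0 ≤ p) (hq : 0 ≤ q)
    (hm : 0 < m) (hn : 0 < n) :
    (a * √p + b * √q) ^ 2 ≤ (a * m + b * n) * (a * (p / m) + b * (q / n)) := by
  set x := √p with hx
  set y := √q with hy
  have hx0 : 0 ≤ x := Real.sqrt_nonneg p
  have hy0 : 0 ≤ y := Real.sqrt_nonneg q
  have hp' : p = x ^ 2 := (Real.sq_sqrt hp).symm
  have hq' : q = y ^ 2 := (Real.sq_sqrt hq).symm
  rw [hp', hq']
  have key : 2 * (x * y) ≤ m * (y ^ 2 / n) + n * (x ^ 2 / m) := by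
    have h1 : m * (y ^ 2 / n) + n * (x ^ 2 / m) - 2 * (x * y)
        = (m * y - n * x) ^ 2 / (m * n) := by
      field_simp; ring
    have h2 : 0 ≤ (m * y - n * x) ^ 2 / (m * n) := by positivity
    linarith
  have e : (a * m + b * n) * (a * (x ^ 2 / m) + b * (y ^ 2 / n)) - (a * x + b * y) ^ 2
      = a * b * (m * (y ^ 2 / n) + n * (x ^ 2 / m) - 2 * (x * y)) := by
    field_simp; ring
  have : 0 ≤ a * b * (m * (y ^ 2 / n) + n * (x ^ 2 / m) - 2 * (x * y)) :=
    mul_nonneg (mul_nonneg ha hb) (by linarith)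
  linarith

/-- **Planar Brunn-Minkowski inequality** for bounded convex measurable sets of positive area. -/
theorem bm_plane {P Q R : Set (ℝ × ℝ)} (hP : MeasurableSet P) (hQ : MeasurableSet Q)
    (hR : MeasurableSet R) (cP : Convex ℝ P) (cQ : Convex ℝ Q)
    (bP : Bornology.IsBounded P) (bQ : Bornology.IsBounded Q) (bR : Bornology.IsBounded R)
    (pP : 0 < volume P) (pQ : 0 < volume Q)
    {θ : ℝ} (hθ0 : 0 ≤ θ) (hθ1 : θ ≤ 1)
    (h : ∀ p ∈ P, ∀ q ∈ Q, (1 - θ) • p + θ • q ∈ R) :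
    (1 - θ) * √(volume P).toReal + θ * √(volume Q).toReal ≤ √(volume R).toReal := by
  have mP := smax_pos hP bP pP
  have mQ := smax_pos hQ bQ pQ
  have hθ' : 0 ≤ 1 - θ := by linarith
  have core := bm_core hP hQ hR cP cQ bP bQ bR pP pQ hθ0 hθ1 h
  have fP : volume P ≠ ⊤ := bP.measure_lt_top.ne
  have fQ : volume Q ≠ ⊤ := bQ.measure_lt_top.ne
  have fR : volume R ≠ ⊤ := bR.measure_lt_top.ne
  have eP := volume_eq_layer hP bP mP
  have eQ := volume_eq_layer hQ bQ mQ
  generalize (∫⁻ l in Ioi (0:ℝ), volume (Lev P (smax P * l))) = IP at core eP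
  generalize (∫⁻ l in Ioi (0:ℝ), volume (Lev Q (smax Q * l))) = IQ at core eQ
  have fIP : IP ≠ ⊤ := by
    intro htop
    rw [htop, ENNReal.mul_top (by simpa using mP)] at eP
    exact fP eP
  have fIQ : IQ ≠ ⊤ := by
    intro htop
    rw [htop, ENNReal.mul_top (by simpa using mQ)] at eQ
    exact fQ eQ
  have rP : (volume P).toReal = smax P * IP.toReal := by
    rw [eP, ENNReal.toReal_mul, ENNReal.toReal_ofReal mP.le]
  have rQ : (volume Q).toReal = smax Q * IQ.toReal := by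
    rw [eQ, ENNReal.toReal_mul, ENNReal.toReal_ofReal mQ.le]
  have core' : ((1 - θ) * smax P + θ * smax Q) * ((1 - θ) * IP.toReal + θ * IQ.toReal)
      ≤ (volume R).toReal := by
    have := ENNReal.toReal_mono fR core
    rw [ENNReal.toReal_mul, ENNReal.toReal_add (ENNReal.mul_ne_top ENNReal.ofReal_ne_top fIP)
      (ENNReal.mul_ne_top ENNReal.ofReal_ne_top fIQ), ENNReal.toReal_mul, ENNReal.toReal_mul,
      ENNReal.toReal_ofReal hθ', ENNReal.toReal_ofReal hθ0, ENNReal.toReal_ofReal] at this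
    · exact this
    · have := mul_nonneg hθ' mP.le
      have := mul_nonneg hθ0 mQ.le
      linarith
  have hIP' : IP.toReal = (volume P).toReal / smax P := by
    rw [rP]; field_simp
  have hIQ' : IQ.toReal = (volume Q).toReal / smax Q := by
    rw [rQ]; field_simp
  have cs := cs_ineq (a := 1 - θ) (b := θ) (p := (volume P).toReal) (q := (volume Q).toReal)
    hθ' hθ0 ENNReal.toReal_nonneg ENNReal.toReal_nonneg mP mQ
  rw [← hIP', ← hIQ'] at cs
  apply Real.le_sqrt_of_sq_le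
  exact cs.trans core'

end Vale.Agent.Lib.P243
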