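import Mathlib
import Vale.Agent.Lib.P243.PlaneBM
import Vale.Agent.Lib.P243.Calc

open MeasureTheory Set
open scoped ENNReal

namespace Vale.Agent.Lib.P243

variable {K : Set ((ℝ × ℝ) × ℝ)}

lemma measurableSet_Lev (kK : IsCompact K) (t : ℝ) : MeasurableSet (Lev K t) :=
  measurableSet_le measurable_const (measurable_slen kK.measurableSet)

lemma isBounded_fst (kK : IsCompact K) : Bornology.IsBounded (Prod.fst '' K) :=
  (kK.image continuous_fst).isBounded

lemma isBounded_Lev (kK : IsCompact K) {t : ℝ} (ht : 0 < t) : Bornology.IsBounded (Lev K t) :=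
  (isBounded_fst kK).subset (Lev_subset_fst ht)

lemma volume_Lev_ne_top (kK : IsCompact K) {t : ℝ} (ht : 0 < t) : volume (Lev K t) ≠ ⊤ :=
  (isBounded_Lev kK ht).measure_lt_top.ne

/-- Brunn-Minkowski for the shadow and two superlevel sets of the chord-length function. -/
lemma bm_levels (cK : Convex ℝ K) (kK : IsCompact K) (pA : 0 < volume (Prod.fst '' K))
    {τ t : ℝ} (hτ : 0 < τ) (hτt : τ ≤ t) (pt : 0 < volume (Lev K t)) :
    (1 - τ / t) * √(volume (Prod.fst '' K)).toReal + (τ / t) * √(volume (Lev K t)).toReal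
      ≤ √(volume (Lev K τ)).toReal := by
  have ht : 0 < t := lt_of_lt_of_le hτ hτt
  have hθ0 : 0 ≤ τ / t := (div_pos hτ ht).le
  have hθ1 : τ / t ≤ 1 := (div_le_one ht).2 hτt
  have cO : Convex ℝ (Prod.fst '' K) := by
    have := cK.linear_image (LinearMap.fst ℝ (ℝ × ℝ) ℝ)
    simpa using this
  apply bm_plane (kK.image continuous_fst).measurableSet (measurableSet_Lev kK t)
    (measurableSet_Lev kK τ) cO (Lev_convex cK kK.isBounded ht) (isBounded_fst kK)
    (isBounded_Lev kK ht) (isBounded_Lev kK hτ) pA pt hθ0 hθ1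
  rintro _ ⟨p, hp, rfl⟩ y hy
  have hK : ∀ p ∈ K, ∀ q ∈ K, (1 - τ / t) • p + (τ / t) • q ∈ K := by
    intro p hp q hq
    exact cK hp hq (by linarith) hθ0 (by ring)
  have n1 : (Prod.mk p.1 ⁻¹' K).Nonempty := ⟨p.2, hp⟩
  have m1 : p.1 ∈ Lev K 0 := by simp [Lev]
  have := Lev_combo cK cK kK.isBounded kK.isBounded hθ0 hθ1 hK le_rfl ht.le n1
    (sec_nonempty_of_mem_Lev ht hy) m1 hy
  have e : (1 - τ / t) * 0 + τ / t * t = τ := by field_simp; ring
  rwa [e] at this

lemma volume_eq_lintegral_Lev (kK : IsCompact K) :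
    volume K = ∫⁻ t in Ioi (0:ℝ), volume (Lev K t) := by
  rw [Measure.volume_eq_prod, Measure.prod_apply kK.measurableSet]
  exact lintegral_layer (volume : Measure (ℝ × ℝ)) (measurable_slen kK.measurableSet)
    (slen_ne_top kK.isBounded)

lemma volume_inter_cyl (kK : IsCompact K) {B : Set (ℝ × ℝ)} (hB : MeasurableSet B) :
    volume (K ∩ (B ×ˢ univ)) = ∫⁻ t in Ioi (0:ℝ), (volume.restrict B) (Lev K t) := by
  rw [Measure.volume_eq_prod,
    Measure.prod_apply (kK.measurableSet.inter (hB.prod MeasurableSet.univ))]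
  have h1 : ∀ y, volume (Prod.mk y ⁻¹' (K ∩ (B ×ˢ (univ : Set ℝ)))) = B.indicator (slen K) y := by
    intro y
    by_cases hy : y ∈ B
    · have : Prod.mk y ⁻¹' (K ∩ (B ×ˢ (univ : Set ℝ))) = Prod.mk y ⁻¹' K := by
        ext t; simp [hy]
      rw [this, indicator_of_mem hy]; rfl
    · have : Prod.mk y ⁻¹' (K ∩ (B ×ˢ (univ : Set ℝ))) = ∅ := by
        ext t; simp [hy]
      rw [this, indicator_of_notMem hy]; simp
  simp_rw [h1]
  rw [lintegral_indicator hB]
  exact lintegral_layer (volume.restrict B) (measurable_slen kK.measurableSet)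
    (slen_ne_top kK.isBounded)

lemma shadow_pos (pV : 0 < volume K) : 0 < volume (Prod.fst '' K) := by
  by_contra h
  have h0 : volume (Prod.fst '' K) = 0 := le_antisymm (not_lt.1 h) bot_le
  have hsub : K ⊆ (Prod.fst '' K) ×ˢ (univ : Set ℝ) := fun p hp => ⟨⟨p, hp, rfl⟩, trivial⟩
  have : volume ((Prod.fst '' K) ×ˢ (univ : Set ℝ)) = 0 := by
    rw [Measure.volume_eq_prod, Measure.prod_prod, h0, zero_mul]
  exact absurd (lt_of_lt_of_le pV (measure_mono hsub)) (by simp [this])

/-- Lower bound for the part of the volume below height `κ`. -/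
lemma lower_U (cK : Convex ℝ K) (kK : IsCompact K) (pA : 0 < volume (Prod.fst '' K))
    {κ : ℝ} (hκ : 0 < κ) (pκ : 0 < volume (Lev K κ)) :
    ENNReal.ofReal (κ * ((√(volume (Prod.fst '' K)).toReal) ^ 2
        + √(volume (Prod.fst '' K)).toReal * √(volume (Lev K κ)).toReal
        + (√(volume (Lev K κ)).toReal) ^ 2) / 3)
      ≤ ∫⁻ t in Ioc (0:ℝ) κ, volume (Lev K t) := by
  set α := √(volume (Prod.fst '' K)).toReal with hα
  set β := √(volume (Lev K κ)).toReal with hβ
  have hα0 : 0 ≤ α := Real.sqrt_nonneg _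
  have hβ0 : 0 ≤ β := Real.sqrt_nonneg _
  have e := lintegral_sq_affine α ((β - α) / κ) hκ.le
  have e2 : α ^ 2 * (κ - 0) + α * ((β - α) / κ) * (κ ^ 2 - 0 ^ 2)
      + ((β - α) / κ) ^ 2 * (κ ^ 3 - 0 ^ 3) / 3 = κ * (α ^ 2 + α * β + β ^ 2) / 3 := by
    field_simp; ring
  rw [e2] at e
  rw [← e]
  apply setLIntegral_mono' measurableSet_Ioc
  intro t ht
  have hb := bm_levels cK kK pA ht.1 ht.2 pκ
  rw [← hα, ← hβ] at hb
  have e3 : (1 - t / κ) * α + t / κ * β = α + (β - α) / κ * t := by field_simp; ring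
  rw [e3] at hb
  have hnn : 0 ≤ α + (β - α) / κ * t := by
    rw [← e3]
    have h1 : 0 ≤ t / κ := (div_pos ht.1 hκ).le
    have h2 : t / κ ≤ 1 := (div_le_one hκ).2 ht.2
    have := mul_nonneg (sub_nonneg.2 h2) hα0
    have := mul_nonneg h1 hβ0
    linarith
  rw [ENNReal.ofReal_le_iff_le_toReal (volume_Lev_ne_top kK ht.1)]
  exact (Real.le_sqrt hnn ENNReal.toReal_nonneg).1 hb

/-- Upper bound for the part of the volume above height `κ`. -/
lemma upper_W (cK : Convex ℝ K) (kK : IsCompact K) (pA : 0 < volume (Prod.fst '' K))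
    {κ : ℝ} (hκ : 0 < κ)
    (hlt : √(volume (Lev K κ)).toReal < √(volume (Prod.fst '' K)).toReal) :
    ∫⁻ t in Ioi κ, volume (Lev K t)
      ≤ ENNReal.ofReal (κ * (√(volume (Lev K κ)).toReal) ^ 3
        / (3 * (√(volume (Prod.fst '' K)).toReal - √(volume (Lev K κ)).toReal))) := by
  set α := √(volume (Prod.fst '' K)).toReal with hα
  set β := √(volume (Lev K κ)).toReal with hβ
  have hα0 : 0 ≤ α := Real.sqrt_nonneg _
  have hβ0 : 0 ≤ β := Real.sqrt_nonneg _
  have hδ : 0 < α - β := sub_pos.2 hlt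
  set T := κ * α / (α - β) with hT
  have hκT : κ ≤ T := by
    rw [hT, le_div_iff₀ hδ]; nlinarith
  -- pointwise bound
  have key : ∀ t, κ < t → 0 < volume (Lev K t) →
      √(volume (Lev K t)).toReal ≤ α + (-(α - β) / κ) * t := by
    intro t ht pt
    have hb := bm_levels cK kK pA hκ ht.le pt
    rw [← hα, ← hβ] at hb
    have ht0 : 0 < t := hκ.trans ht
    have h1 : κ / t * √(volume (Lev K t)).toReal ≤ β - (1 - κ / t) * α := by linarith
    have h2 : √(volume (Lev K t)).toReal ≤ (β - (1 - κ / t) * α) * (t / κ) := by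
      have h3 := mul_le_mul_of_nonneg_right h1 (div_pos ht0 hκ).le
      have e4 : κ / t * √(volume (Lev K t)).toReal * (t / κ) = √(volume (Lev K t)).toReal := by
        field_simp
      rwa [e4] at h3
    have e5 : (β - (1 - κ / t) * α) * (t / κ) = α + (-(α - β) / κ) * t := by
      field_simp; ring
    rwa [e5] at h2
  have split : Ioi κ = Ioc κ T ∪ Ioi T := (Ioc_union_Ioi_eq_Ioi hκT).symm
  rw [split, lintegral_union measurableSet_Ioi (by
    rw [Set.disjoint_left]; intro x hx hx'; exact absurd hx.2 (not_le.2 hx'))]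
  have z2 : ∫⁻ t in Ioi T, volume (Lev K t) = 0 := by
    rw [← lintegral_zero (μ := volume.restrict (Ioi T))]
    apply setLIntegral_congr_fun measurableSet_Ioi
    intro t ht
    have htT : T < t := ht
    by_contra hne
    have pt : 0 < volume (Lev K t) := pos_iff_ne_zero.2 hne
    have h1 := key t (lt_of_le_of_lt hκT htT) pt
    have h2 : α + (-(α - β) / κ) * t < 0 := by
      have : α + (-(α - β) / κ) * T = 0 := by rw [hT]; field_simp; ring
      have h3 : (-(α - β) / κ) * t < (-(α - β) / κ) * T := by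
        apply mul_lt_mul_of_neg_left htT
        apply div_neg_of_neg_of_pos (by linarith) hκ
      linarith
    have := Real.sqrt_nonneg (volume (Lev K t)).toReal
    linarith
  rw [z2, add_zero]
  have e := lintegral_sq_affine α (-(α - β) / κ) hκT
  have e2 : α ^ 2 * (T - κ) + α * (-(α - β) / κ) * (T ^ 2 - κ ^ 2)
      + (-(α - β) / κ) ^ 2 * (T ^ 3 - κ ^ 3) / 3 = κ * β ^ 3 / (3 * (α - β)) := by
    rw [hT]; field_simp; ring
  rw [e2] at e
  rw [← e]
  apply setLIntegral_mono' measurableSet_Ioc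
  intro t ht
  have ht0 : 0 < t := hκ.trans ht.1
  by_cases pt : 0 < volume (Lev K t)
  · have h1 := key t ht.1 pt
    rw [ENNReal.le_ofReal_iff_toReal_le (volume_Lev_ne_top kK ht0) (sq_nonneg _)]
    have h0 := Real.sqrt_nonneg (volume (Lev K t)).toReal
    calc (volume (Lev K t)).toReal = (√(volume (Lev K t)).toReal) ^ 2 :=
          (Real.sq_sqrt ENNReal.toReal_nonneg).symm
      _ ≤ (α + (-(α - β) / κ) * t) ^ 2 := by gcongr
  · have : volume (Lev K t) = 0 := le_antisymm (not_lt.1 pt) bot_le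
    rw [this]; exact bot_le

/-- The volume of `K` above height `κ = 3 (1 - c) V / A` is at most `c ^ 3 V`. -/
lemma top_part_le (cK : Convex ℝ K) (kK : IsCompact K) (pV : 0 < volume K)
    {c : ℝ} (hc0 : 0 ≤ c) (hc1 : c < 1) :
    ∫⁻ t in Ioi (3 * (1 - c) * (volume K).toReal / (volume (Prod.fst '' K)).toReal),
      volume (Lev K t) ≤ ENNReal.ofReal (c ^ 3) * volume K := by
  have pA := shadow_pos pV
  have fV : volume K ≠ ⊤ := kK.measure_lt_top.ne
  have fA : volume (Prod.fst '' K) ≠ ⊤ := (isBounded_fst kK).measure_lt_top.ne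
  set V := (volume K).toReal with hV
  set A := (volume (Prod.fst '' K)).toReal with hA
  have hVpos : 0 < V := ENNReal.toReal_pos pV.ne' fV
  have hApos : 0 < A := ENNReal.toReal_pos pA.ne' fA
  set κ := 3 * (1 - c) * V / A with hκdef
  have hκ : 0 < κ := by
    have : 0 < 1 - c := by linarith
    positivity
  have eV : volume K = ENNReal.ofReal V := (ENNReal.ofReal_toReal fV).symm
  have hc3 : 0 ≤ c ^ 3 := by positivity
  rw [eV, ← ENNReal.ofReal_mul hc3]
  set α := √A with hα
  have hαpos : 0 < α := Real.sqrt_pos.2 hApos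
  have hα2 : α ^ 2 = A := Real.sq_sqrt hApos.le
  by_cases pκ : 0 < volume (Lev K κ)
  swap
  · have z : volume (Lev K κ) = 0 := le_antisymm (not_lt.1 pκ) bot_le
    have : ∫⁻ t in Ioi κ, volume (Lev K t) = 0 := by
      rw [← lintegral_zero (μ := volume.restrict (Ioi κ))]
      apply setLIntegral_congr_fun measurableSet_Ioi
      intro t ht
      have htκ : κ < t := ht
      exact le_antisymm (z ▸ measure_mono (Lev_antitone K htκ.le)) bot_le
    rw [this]; exact bot_le
  set β := √(volume (Lev K κ)).toReal with hβ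
  have hβ0 : 0 ≤ β := Real.sqrt_nonneg _
  by_cases hb : β ≤ c * α
  · have hlt : β < α := by nlinarith
    have hW := upper_W cK kK pA hκ hlt
    refine hW.trans (ENNReal.ofReal_le_ofReal ?_)
    rw [← hβ, ← hA, ← hα]
    have hδ : 0 < α - β := sub_pos.2 hlt
    rw [div_le_iff₀ (by positivity)]
    have hκe : κ = 3 * (1 - c) * V / α ^ 2 := by rw [hκdef, hα2]
    rw [hκe]
    have h1 : β ^ 3 ≤ (c * α) ^ 3 := by gcongr
    have h2 : (1 - c) * β ^ 3 ≤ c ^ 3 * α ^ 2 * (α - β) := by
      have h3 : (1 - c) * β ^ 3 ≤ (1 - c) * (c * α) ^ 3 :=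
        mul_le_mul_of_nonneg_left h1 (by linarith)
      have h4 : c ^ 3 * α ^ 2 * (α - c * α) ≤ c ^ 3 * α ^ 2 * (α - β) := by
        apply mul_le_mul_of_nonneg_left (by linarith) (by positivity)
      nlinarith
    have e : 3 * (1 - c) * V / α ^ 2 * β ^ 3 = 3 * V * ((1 - c) * β ^ 3) / α ^ 2 := by ring
    rw [e, div_le_iff₀ (by positivity)]
    have : 3 * V * ((1 - c) * β ^ 3) ≤ 3 * V * (c ^ 3 * α ^ 2 * (α - β)) :=
      mul_le_mul_of_nonneg_left h2 (by positivity)
    nlinarith
  · push Not at hb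
    have hU := lower_U cK kK pA hκ pκ
    rw [← hβ, ← hA, ← hα] at hU
    have hsplit : volume K = (∫⁻ t in Ioc (0:ℝ) κ, volume (Lev K t))
        + ∫⁻ t in Ioi κ, volume (Lev K t) := by
      rw [volume_eq_lintegral_Lev kK, ← Ioc_union_Ioi_eq_Ioi hκ.le,
        lintegral_union measurableSet_Ioi (by
          rw [Set.disjoint_left]; intro x hx hx'; exact absurd hx.2 (not_le.2 hx'))]
    have hlow : (1 - c ^ 3) * V ≤ κ * (α ^ 2 + α * β + β ^ 2) / 3 := by
      have hκe : κ = 3 * (1 - c) * V / α ^ 2 := by rw [hκdef, hα2]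
      rw [hκe]
      have e : 3 * (1 - c) * V / α ^ 2 * (α ^ 2 + α * β + β ^ 2) / 3
          = (1 - c) * V * (α ^ 2 + α * β + β ^ 2) / α ^ 2 := by ring
      rw [e, le_div_iff₀ (by positivity)]
      have h5 : c * α ^ 2 ≤ α * β := by
        have := mul_le_mul_of_nonneg_left hb.le hαpos.le
        nlinarith
      have h6 : c ^ 2 * α ^ 2 ≤ β ^ 2 := by
        have := pow_le_pow_left₀ (mul_nonneg hc0 hαpos.le) hb.le 2
        rw [mul_pow] at this
        exact this
      have h1 : (1 + c + c ^ 2) * α ^ 2 ≤ α ^ 2 + α * β + β ^ 2 := by nlinarith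
      have h2 : (1 - c) * V * ((1 + c + c ^ 2) * α ^ 2) ≤ (1 - c) * V * (α ^ 2 + α * β + β ^ 2) :=
        mul_le_mul_of_nonneg_left h1 (mul_nonneg (by linarith) hVpos.le)
      nlinarith
    have hU' : ENNReal.ofReal ((1 - c ^ 3) * V) ≤ ∫⁻ t in Ioc (0:ℝ) κ, volume (Lev K t) :=
      (ENNReal.ofReal_le_ofReal hlow).trans hU
    have hc3' : c ^ 3 ≤ 1 := pow_le_one₀ hc0 hc1.le
    have hsum : ENNReal.ofReal V = ENNReal.ofReal ((1 - c ^ 3) * V) + ENNReal.ofReal (c ^ 3 * V) := by
      rw [← ENNReal.ofReal_add (mul_nonneg (by linarith) hVpos.le) (mul_nonneg hc3 hVpos.le)]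
      congr 1; ring
    have : ENNReal.ofReal ((1 - c ^ 3) * V) + ∫⁻ t in Ioi κ, volume (Lev K t)
        ≤ ENNReal.ofReal ((1 - c ^ 3) * V) + ENNReal.ofReal (c ^ 3 * V) := by
      rw [← hsum, ← eV, hsplit]
      gcongr
    exact (ENNReal.add_le_add_iff_left ENNReal.ofReal_ne_top).1 this

/-- **Core inequality.** For a convex body `K` in `(ℝ × ℝ) × ℝ`, a measurable base `B` and any
`c ∈ [0, 1]`, the part of `K` in the vertical cylinder over `B` has volume at most
`3 (1 - c) (|B| / A) V + c ^ 3 V`. -/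
theorem core_ineq (cK : Convex ℝ K) (kK : IsCompact K) (pV : 0 < volume K)
    {B : Set (ℝ × ℝ)} (hB : MeasurableSet B) {c : ℝ} (hc0 : 0 ≤ c) (hc1 : c ≤ 1) :
    volume (K ∩ (B ×ˢ univ))
      ≤ ENNReal.ofReal (3 * (1 - c) * (volume K).toReal / (volume (Prod.fst '' K)).toReal) * volume B
        + ENNReal.ofReal (c ^ 3) * volume K := by
  rcases hc1.eq_or_lt with h1 | h1
  · subst h1
    simp only [one_pow, ENNReal.ofReal_one, one_mul]
    exact (measure_mono inter_subset_left).trans le_add_self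
  have pA := shadow_pos pV
  have fV : volume K ≠ ⊤ := kK.measure_lt_top.ne
  have fA : volume (Prod.fst '' K) ≠ ⊤ := (isBounded_fst kK).measure_lt_top.ne
  have hVpos : 0 < (volume K).toReal := ENNReal.toReal_pos pV.ne' fV
  have hApos : 0 < (volume (Prod.fst '' K)).toReal := ENNReal.toReal_pos pA.ne' fA
  have htop := top_part_le cK kK pV hc0 h1
  set κ := 3 * (1 - c) * (volume K).toReal / (volume (Prod.fst '' K)).toReal with hκdef
  have hκ : 0 < κ := by
    have : 0 < 1 - c := by linarith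
    positivity
  rw [volume_inter_cyl kK hB, ← Ioc_union_Ioi_eq_Ioi hκ.le,
    lintegral_union measurableSet_Ioi (by
      rw [Set.disjoint_left]; intro x hx hx'; exact absurd hx.2 (not_le.2 hx'))]
  apply add_le_add
  · calc ∫⁻ t in Ioc (0:ℝ) κ, (volume.restrict B) (Lev K t)
        ≤ ∫⁻ _t in Ioc (0:ℝ) κ, volume B := by
          apply lintegral_mono
          intro t
          calc (volume.restrict B) (Lev K t) ≤ (volume.restrict B) univ := measure_mono (subset_univ _)
            _ = volume B := by simp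
      _ = ENNReal.ofReal κ * volume B := by
          rw [setLIntegral_const, Real.volume_Ioc, sub_zero, mul_comm]
  · refine le_trans ?_ htop
    apply lintegral_mono
    intro t
    exact Measure.restrict_apply_le _ _

end Vale.Agent.Lib.P243
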