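import Mathlib
import Vale.Agent.Lib.P243.Core

open MeasureTheory Measure Set Module
open scoped ENNReal

namespace Vale.Agent.Lib.P243

/-- A continuous linear equivalence scales Haar measures by a constant. -/
lemma exists_scale {E F : Type*} [NormedAddCommGroup E] [NormedSpace ℝ E] [FiniteDimensional ℝ E]
    [MeasurableSpace E] [BorelSpace E] [NormedAddCommGroup F] [NormedSpace ℝ F]
    [FiniteDimensional ℝ F] [MeasurableSpace F] [BorelSpace F]
    (μ : Measure E) [μ.IsAddHaarMeasure] (ν : Measure F) [ν.IsAddHaarMeasure] (f : E ≃L[ℝ] F) :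
    ∃ c : ℝ≥0∞, c ≠ 0 ∧ c ≠ ⊤ ∧ ∀ S : Set E, ν (f '' S) = c * μ S := by
  have : (Measure.map f.symm ν).IsAddHaarMeasure := f.symm.isAddHaarMeasure_map ν
  have : ProperSpace E := FiniteDimensional.proper_real E
  have h := isAddLeftInvariant_eq_smul (Measure.map f.symm ν) μ
  have hpos := addHaarScalarFactor_pos_of_isAddHaarMeasure (Measure.map f.symm ν) μ
  refine ⟨((Measure.map f.symm ν).addHaarScalarFactor μ : ℝ≥0∞), ?_, ENNReal.coe_ne_top, ?_⟩
  · exact_mod_cast hpos.ne'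
  · intro S
    have h1 : ν (f '' S) = (Measure.map f.symm ν) S := by
      have := (f.symm.toHomeomorph.toMeasurableEquiv).map_apply (μ := ν) S
      have e : (f.symm.toHomeomorph.toMeasurableEquiv : F → E) ⁻¹' S = f '' S := by
        ext y
        constructor
        · intro hy
          exact ⟨f.symm y, hy, by simp⟩
        · rintro ⟨x, hx, rfl⟩
          show f.symm (f x) ∈ S
          simpa using hx
      rw [e] at this
      exact this.symm
    rw [h1]
    have h2 := congrArg (fun m : Measure E => m S) h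
    exact h2

/-- The core inequality in ratio form, for arbitrary bases. -/
theorem core_ratio {K : Set ((ℝ × ℝ) × ℝ)} (cK : Convex ℝ K) (kK : IsCompact K)
    (pV : 0 < volume K) (B : Set (ℝ × ℝ)) {c : ℝ} (hc0 : 0 ≤ c) (hc1 : c ≤ 1) :
    volume (K ∩ (B ×ˢ univ))
      ≤ (ENNReal.ofReal (3 * (1 - c)) * (volume B / volume (Prod.fst '' K))
        + ENNReal.ofReal (c ^ 3)) * volume K := by
  have pA := shadow_pos pV
  have fV : volume K ≠ ⊤ := kK.measure_lt_top.ne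
  have fA : volume (Prod.fst '' K) ≠ ⊤ := (isBounded_fst kK).measure_lt_top.ne
  have hApos : 0 < (volume (Prod.fst '' K)).toReal := ENNReal.toReal_pos pA.ne' fA
  have h := core_ineq cK kK pV (measurableSet_toMeasurable volume B) hc0 hc1
  rw [measure_toMeasurable] at h
  have hsub : K ∩ (B ×ˢ univ) ⊆ K ∩ (toMeasurable volume B ×ˢ univ) :=
    inter_subset_inter_right _ (prod_mono (subset_toMeasurable _ _) subset_rfl)
  refine (measure_mono hsub).trans (h.trans (le_of_eq ?_))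
  have e1 : ENNReal.ofReal (3 * (1 - c) * (volume K).toReal / (volume (Prod.fst '' K)).toReal)
      = ENNReal.ofReal (3 * (1 - c)) * volume K / volume (Prod.fst '' K) := by
    rw [ENNReal.ofReal_div_of_pos hApos, ENNReal.ofReal_mul (by linarith),
      ENNReal.ofReal_toReal fV, ENNReal.ofReal_toReal fA]
  rw [e1, add_mul]
  congr 1
  simp only [div_eq_mul_inv]
  ring

/-- Volume of the part of a convex body of `ℝ³` lying in a cylinder. -/
theorem cyl_bound {K : Set (EuclideanSpace ℝ (Fin 3))} (cK : Convex ℝ K) (kK : IsCompact K)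
    (iK : (interior K).Nonempty) {u : EuclideanSpace ℝ (Fin 3)} (hu : ‖u‖ = 1)
    {B : Set (EuclideanSpace ℝ (Fin 3))} (hB : B ⊆ ((ℝ ∙ u)ᗮ : Submodule ℝ (EuclideanSpace ℝ (Fin 3))))
    {c : ℝ} (hc0 : 0 ≤ c) (hc1 : c ≤ 1) :
    volume (K ∩ {x | ∃ b ∈ B, ∃ t : ℝ, x = b + t • u})
      ≤ (ENNReal.ofReal (3 * (1 - c)) * (μHE[2] B / μHE[2] ((ℝ ∙ u)ᗮ.starProjection '' K))
        + ENNReal.ofReal (c ^ 3)) * volume K := by
  have hu0 : u ≠ 0 := by
    intro h; rw [h, norm_zero] at hu; exact zero_ne_one hu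
  have hfin : finrank ℝ ((ℝ ∙ u)ᗮ : Submodule ℝ (EuclideanSpace ℝ (Fin 3))) = 2 := by
    have : Fact (finrank ℝ (EuclideanSpace ℝ (Fin 3)) = 2 + 1) := ⟨by simp⟩
    exact Submodule.finrank_orthogonal_span_singleton hu0
  let e : (ℝ × ℝ) ≃L[ℝ] ((ℝ ∙ u)ᗮ : Submodule ℝ (EuclideanSpace ℝ (Fin 3))) :=
    ContinuousLinearEquiv.ofFinrankEq (by simp [hfin])
  let ψ : ((ℝ × ℝ) × ℝ) →ₗ[ℝ] EuclideanSpace ℝ (Fin 3) :=
    LinearMap.coprod ((ℝ ∙ u)ᗮ.subtype ∘ₗ e.toLinearMap)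
      (LinearMap.toSpanSingleton ℝ (EuclideanSpace ℝ (Fin 3)) u)
  have hψ : ∀ a t, ψ (a, t) = (e a : EuclideanSpace ℝ (Fin 3)) + t • u := by
    intro a t; simp [ψ]
  have horth : ∀ a, inner ℝ u (e a : EuclideanSpace ℝ (Fin 3)) = 0 := by
    intro a
    exact Submodule.mem_orthogonal_singleton_iff_inner_right.1 (e a).2
  have hinj : Function.Injective ψ := by
    rw [injective_iff_map_eq_zero]
    rintro ⟨a, t⟩ h
    rw [hψ] at h
    have h1 : inner ℝ u ((e a : EuclideanSpace ℝ (Fin 3)) + t • u) = 0 := by rw [h]; simp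
    rw [inner_add_right, horth, inner_smul_right, real_inner_self_eq_norm_sq, hu] at h1
    have ht : t = 0 := by simpa using h1
    rw [ht] at h
    have ha : e a = 0 := by
      apply Subtype.ext
      simpa using h
    have : a = 0 := by simpa using ha
    rw [this, ht]; rfl
  let Ψ : ((ℝ × ℝ) × ℝ) ≃L[ℝ] EuclideanSpace ℝ (Fin 3) :=
    (ψ.linearEquivOfInjective hinj (by simp)).toContinuousLinearEquiv
  have hΨ : ∀ a t, Ψ (a, t) = (e a : EuclideanSpace ℝ (Fin 3)) + t • u := hψ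
  have hH2 : (volume : Measure (ℝ × ℝ)).IsAddHaarMeasure := by
    rw [Measure.volume_eq_prod]; infer_instance
  have hH3 : (volume : Measure ((ℝ × ℝ) × ℝ)).IsAddHaarMeasure := by
    rw [Measure.volume_eq_prod]; infer_instance
  obtain ⟨c₁, hc₁0, hc₁t, hs₁⟩ := exists_scale (volume : Measure ((ℝ × ℝ) × ℝ))
    (volume : Measure (EuclideanSpace ℝ (Fin 3))) Ψ
  have hHaar : (μHE[2] : Measure ((ℝ ∙ u)ᗮ : Submodule ℝ (EuclideanSpace ℝ (Fin 3)))).IsAddHaarMeasure := by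
    rw [← hfin]; infer_instance
  obtain ⟨c₂, hc₂0, hc₂t, hs₂⟩ := exists_scale (volume : Measure (ℝ × ℝ))
    (μHE[2] : Measure ((ℝ ∙ u)ᗮ : Submodule ℝ (EuclideanSpace ℝ (Fin 3)))) e
  have hs₂' : ∀ T : Set (ℝ × ℝ),
      μHE[2] ((fun a => (e a : EuclideanSpace ℝ (Fin 3))) '' T) = c₂ * volume T := by
    intro T
    have hiso : Isometry (fun y : ((ℝ ∙ u)ᗮ : Submodule ℝ (EuclideanSpace ℝ (Fin 3))) =>
        (y : EuclideanSpace ℝ (Fin 3))) := (ℝ ∙ u)ᗮ.subtypeₗᵢ.isometry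
    rw [← hs₂ T, ← hiso.euclideanHausdorffMeasure_image (d := 2) (e '' T), image_image]
  set K' : Set ((ℝ × ℝ) × ℝ) := Ψ ⁻¹' K with hK'
  set B' : Set (ℝ × ℝ) := {a | (e a : EuclideanSpace ℝ (Fin 3)) ∈ B} with hB'
  have F1 : Ψ '' K' = K := image_preimage_eq K Ψ.surjective
  have F2 : K ∩ {x | ∃ b ∈ B, ∃ t : ℝ, x = b + t • u} ⊆ Ψ '' (K' ∩ (B' ×ˢ univ)) := by
    rintro x ⟨hxK, b, hb, t, rfl⟩
    have hea : (e (e.symm ⟨b, hB hb⟩) : EuclideanSpace ℝ (Fin 3)) = b := by simp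
    refine ⟨(e.symm ⟨b, hB hb⟩, t), ⟨?_, ?_, trivial⟩, ?_⟩
    · show Ψ (e.symm ⟨b, hB hb⟩, t) ∈ K
      rw [hΨ, hea]; exact hxK
    · show (e (e.symm ⟨b, hB hb⟩) : EuclideanSpace ℝ (Fin 3)) ∈ B
      rw [hea]; exact hb
    · rw [hΨ, hea]
  have F3 : (fun a => (e a : EuclideanSpace ℝ (Fin 3))) '' B' = B := by
    ext b
    constructor
    · rintro ⟨a, ha, rfl⟩; exact ha
    · intro hb
      have hea : (e (e.symm ⟨b, hB hb⟩) : EuclideanSpace ℝ (Fin 3)) = b := by simp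
      exact ⟨e.symm ⟨b, hB hb⟩, by show _ ∈ B; rw [hea]; exact hb, hea⟩
  have F4 : (ℝ ∙ u)ᗮ.starProjection '' K
      ⊆ (fun a => (e a : EuclideanSpace ℝ (Fin 3))) '' (Prod.fst '' K') := by
    rintro _ ⟨x, hx, rfl⟩
    obtain ⟨⟨a, t⟩, rfl⟩ := Ψ.surjective x
    refine ⟨a, ⟨(a, t), hx, rfl⟩, ?_⟩
    rw [hΨ, map_add, map_smul, Submodule.starProjection_orthogonalComplement_singleton_eq_zero,
      smul_zero, add_zero]
    exact (Submodule.starProjection_eq_self_iff.2 (e a).2).symm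
  have cK' : Convex ℝ K' := cK.linear_preimage Ψ.toLinearMap
  have kK' : IsCompact K' := Ψ.toHomeomorph.isCompact_preimage.2 kK
  have pK : 0 < volume K :=
    lt_of_lt_of_le (isOpen_interior.measure_pos volume iK) (measure_mono interior_subset)
  have eK : volume K = c₁ * volume K' := by rw [← hs₁ K', F1]
  have pK' : 0 < volume K' := by
    rw [eK] at pK
    exact pos_iff_ne_zero.2 (fun h => by simp [h] at pK)
  have hcore := core_ratio cK' kK' pK' B' hc0 hc1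
  have hratio : volume B' / volume (Prod.fst '' K')
      ≤ μHE[2] B / μHE[2] ((ℝ ∙ u)ᗮ.starProjection '' K) := by
    rw [← ENNReal.mul_div_mul_left _ _ hc₂0 hc₂t, ← hs₂', ← hs₂', F3]
    exact ENNReal.div_le_div_left (measure_mono F4) _
  calc volume (K ∩ {x | ∃ b ∈ B, ∃ t : ℝ, x = b + t • u})
      ≤ volume (Ψ '' (K' ∩ (B' ×ˢ univ))) := measure_mono F2
    _ = c₁ * volume (K' ∩ (B' ×ˢ univ)) := hs₁ _
    _ ≤ c₁ * ((ENNReal.ofReal (3 * (1 - c)) * (volume B' / volume (Prod.fst '' K'))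
        + ENNReal.ofReal (c ^ 3)) * volume K') := by gcongr
    _ = (ENNReal.ofReal (3 * (1 - c)) * (volume B' / volume (Prod.fst '' K'))
        + ENNReal.ofReal (c ^ 3)) * volume K := by rw [eK]; ring
    _ ≤ (ENNReal.ofReal (3 * (1 - c)) * (μHE[2] B / μHE[2] ((ℝ ∙ u)ᗮ.starProjection '' K))
        + ENNReal.ofReal (c ^ 3)) * volume K := by gcongr

end Vale.Agent.Lib.P243
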