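import Mathlib
import Vale.Agent.Lib.P243.Defs
import Vale.Agent.Lib.P243.Frame
import Vale.Agent.Lib.P243.ShadowArea

open Set MeasureTheory Measure Module Metric
open scoped RealInnerProductSpace ENNReal

namespace Vale.Agent.Lib.P243

/-- An orthonormal pair spanning the plane orthogonal to a unit vector. -/
lemma exists_pair {v : E3} (hv : ‖v‖ = 1) :
    ∃ a b : E3, ‖a‖ = 1 ∧ ‖b‖ = 1 ∧ ⟪b, a⟫ = 0 ∧ ⟪v, a⟫ = 0 ∧ ⟪v, b⟫ = 0 := by
  have hon : Orthonormal ℝ (({2} : Set (Fin 3)).domRestrict ![0, 0, v]) := by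
    rw [orthonormal_iff_ite]
    rintro ⟨i, hi⟩ ⟨j, hj⟩
    have hi' : i = 2 := by simpa using hi
    have hj' : j = 2 := by simpa using hj
    subst hi' hj'
    simp [Set.domRestrict, hv]
  obtain ⟨b, hb⟩ := hon.exists_orthonormalBasis_extension_of_card_eq (by simp)
  have b2 : b 2 = v := by simpa using hb 2 (by simp)
  have hbo := b.orthonormal
  refine ⟨b 0, b 1, hbo.1 0, hbo.1 1, hbo.2 (by decide), ?_, ?_⟩
  · rw [← b2]; exact hbo.2 (by decide)
  · rw [← b2]; exact hbo.2 (by decide)

/-- The smallest projection area of a convex body is positive and finite. -/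
theorem minShadowArea_pos_lt_top {K : Set E3} (hK : IsConvexBody K) :
    0 < minShadowArea K ∧ minShadowArea K < ⊤ := by
  obtain ⟨c, hc⟩ := hK.2.2
  obtain ⟨r, hr, hball⟩ := Metric.isOpen_iff.1 isOpen_interior c hc
  constructor
  · have key : ∀ v : E3, ‖v‖ = 1 → ENNReal.ofReal (r * r) ≤ area (shadow v K) := by
      intro v hv
      obtain ⟨a, b, ha, hb, hba, hva, hvb⟩ := exists_pair hv
      set Q : Set (ℝ × ℝ) := Ioo (-(r / 2)) (r / 2) ×ˢ Ioo (-(r / 2)) (r / 2) with hQ
      have hvolQ : volume Q = ENNReal.ofReal (r * r) := by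
        rw [hQ, Measure.volume_eq_prod, Measure.prod_prod, Real.volume_Ioo,
          ← ENNReal.ofReal_mul (by linarith)]
        congr 1; ring
      set c' : E3 := (ℝ ∙ v)ᗮ.starProjection c with hc'
      have hsub : (fun y => -c' + y) ⁻¹' ((fun p : ℝ × ℝ => p.1 • a + p.2 • b) '' Q)
          ⊆ shadow v K := by
        rintro y ⟨p, hp, hpy⟩
        have hy : y = c' + (p.1 • a + p.2 • b) := by
          have hpy' : p.1 • a + p.2 • b = -c' + y := hpy
          rw [hpy']; abel
        have hmem : p.1 • a + p.2 • b ∈ (ℝ ∙ v)ᗮ := by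
          rw [Submodule.mem_orthogonal_singleton_iff_inner_right, inner_add_right, inner_smul_right,
            inner_smul_right, hva, hvb]
          simp
        refine ⟨c + (p.1 • a + p.2 • b), ?_, ?_⟩
        · apply interior_subset; apply hball
          rw [mem_ball, dist_eq_norm, add_sub_cancel_left]
          have h1 : |p.1| < r / 2 := abs_lt.2 hp.1
          have h2 : |p.2| < r / 2 := abs_lt.2 hp.2
          calc ‖p.1 • a + p.2 • b‖ ≤ ‖p.1 • a‖ + ‖p.2 • b‖ := norm_add_le _ _
            _ = |p.1| + |p.2| := by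
                rw [norm_smul, norm_smul, ha, hb, mul_one, mul_one, Real.norm_eq_abs,
                  Real.norm_eq_abs]
            _ < r := by linarith
        · rw [map_add, Submodule.starProjection_eq_self_iff.2 hmem, hy]
      calc ENNReal.ofReal (r * r) = area ((fun p : ℝ × ℝ => p.1 • a + p.2 • b) '' Q) := by
            rw [area_image ha hb hba, hvolQ]
        _ = area ((fun y => -c' + y) ⁻¹' ((fun p : ℝ × ℝ => p.1 • a + p.2 • b) '' Q)) := by
            unfold area
            rw [measure_preimage_add]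
        _ ≤ area (shadow v K) := measure_mono hsub
    have h1 : ENNReal.ofReal (r * r) ≤ minShadowArea K := le_iInf₂ key
    exact lt_of_lt_of_le (ENNReal.ofReal_pos.2 (by positivity)) h1
  · set v : E3 := EuclideanSpace.single 0 1 with hv
    have hv1 : ‖v‖ = 1 := by simp [hv]
    have h1 : minShadowArea K ≤ area (shadow v K) := iInf₂_le v hv1
    exact h1.trans_lt (shadow_area_pos_lt_top hK hv1).2

end Vale.Agent.Lib.P243
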