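import Mathlib
import Vale.Agent.Lib.P243.Transfer

open MeasureTheory Measure Set Module
open scoped ENNReal

namespace Vale.Agent.Lib.P243

/-- General refined inequality for a finite covering of a convex body by cylinders. -/
theorem refined {K : Set (EuclideanSpace ℝ (Fin 3))} (cK : Convex ℝ K) (kK : IsCompact K)
    (iK : (interior K).Nonempty) {ι : Type*} [Fintype ι] (u : ι → EuclideanSpace ℝ (Fin 3))
    (hu : ∀ i, ‖u i‖ = 1) (B : ι → Set (EuclideanSpace ℝ (Fin 3)))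
    (hB : ∀ i, B i ⊆ ((ℝ ∙ u i)ᗮ : Submodule ℝ (EuclideanSpace ℝ (Fin 3))))
    (hcov : K ⊆ ⋃ i, {x | ∃ b ∈ B i, ∃ t : ℝ, x = b + t • u i})
    (c : ι → ℝ) (hc0 : ∀ i, 0 ≤ c i) (hc1 : ∀ i, c i ≤ 1) :
    1 ≤ ∑ i, (ENNReal.ofReal (3 * (1 - c i))
        * (μHE[2] (B i) / μHE[2] ((ℝ ∙ u i)ᗮ.starProjection '' K)) + ENNReal.ofReal (c i ^ 3)) := by
  have pK : 0 < volume K :=
    lt_of_lt_of_le (isOpen_interior.measure_pos volume iK) (measure_mono interior_subset)
  have fK : volume K ≠ ⊤ := kK.measure_lt_top.ne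
  have h1 : volume K ≤ ∑ i, volume (K ∩ {x | ∃ b ∈ B i, ∃ t : ℝ, x = b + t • u i}) := by
    have hsub : K ⊆ ⋃ i ∈ (Finset.univ : Finset ι),
        (K ∩ {x | ∃ b ∈ B i, ∃ t : ℝ, x = b + t • u i}) := by
      intro x hx
      obtain ⟨i, hi⟩ := mem_iUnion.1 (hcov hx)
      simp only [Finset.mem_univ, iUnion_true, mem_iUnion]
      exact ⟨i, hx, hi⟩
    exact (measure_mono hsub).trans (measure_biUnion_finset_le _ _)
  have h2 : volume K ≤ (∑ i, (ENNReal.ofReal (3 * (1 - c i))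
        * (μHE[2] (B i) / μHE[2] ((ℝ ∙ u i)ᗮ.starProjection '' K)) + ENNReal.ofReal (c i ^ 3)))
        * volume K := by
    rw [Finset.sum_mul]
    exact h1.trans (Finset.sum_le_sum fun i _ => cyl_bound cK kK iK (hu i) (hB i) (hc0 i) (hc1 i))
  by_contra hlt
  push Not at hlt
  have h3 := ENNReal.mul_lt_mul_left pK.ne' fK hlt
  rw [one_mul] at h3
  exact absurd (lt_of_le_of_lt h2 h3) (lt_irrefl _)

/-- Solving a linear inequality in `ℝ≥0∞`. -/
lemma solve_linear {x : ℝ≥0∞} {a b : ℝ} (ha : 0 < a) (hb : 0 ≤ b)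
    (h : 1 ≤ ENNReal.ofReal a * x + ENNReal.ofReal b) : ENNReal.ofReal ((1 - b) / a) ≤ x := by
  by_cases hx : x = ⊤
  · rw [hx]; exact le_top
  · have ex : x = ENNReal.ofReal x.toReal := (ENNReal.ofReal_toReal hx).symm
    rw [ex] at h ⊢
    have hr : 0 ≤ x.toReal := ENNReal.toReal_nonneg
    rw [← ENNReal.ofReal_mul ha.le, ← ENNReal.ofReal_add (mul_nonneg ha.le hr) hb,
      ← ENNReal.ofReal_one, ENNReal.ofReal_le_ofReal_iff (by positivity)] at h
    apply ENNReal.ofReal_le_ofReal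
    rw [div_le_iff₀ ha]; linarith

lemma starProjection_congr {S T : Submodule ℝ (EuclideanSpace ℝ (Fin 3))} (h : S = T) :
    Sᗮ.starProjection = Tᗮ.starProjection := by
  subst h; rfl

/-- Covering by cylinders whose axes are parallel to `k` given lines. -/
theorem lines_bound {K : Set (EuclideanSpace ℝ (Fin 3))} (cK : Convex ℝ K) (kK : IsCompact K)
    (iK : (interior K).Nonempty) {ι κ : Type*} [Fintype ι] [Fintype κ]
    (u : ι → EuclideanSpace ℝ (Fin 3))
    (B : ι → Set (EuclideanSpace ℝ (Fin 3)))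
    (hB : ∀ i, B i ⊆ ((ℝ ∙ u i)ᗮ : Submodule ℝ (EuclideanSpace ℝ (Fin 3))))
    (hcov : K ⊆ ⋃ i, {x | ∃ b ∈ B i, ∃ t : ℝ, x = b + t • u i})
    (w : κ → EuclideanSpace ℝ (Fin 3)) (hw : ∀ j, ‖w j‖ = 1)
    (hdir : ∀ i, ∃ j, ℝ ∙ u i = ℝ ∙ w j)
    {c : ℝ} (hc0 : 0 ≤ c) (hc1 : c ≤ 1) :
    1 ≤ ENNReal.ofReal (3 * (1 - c))
        * ∑ i, μHE[2] (B i) / μHE[2] ((ℝ ∙ u i)ᗮ.starProjection '' K)
      + (Fintype.card κ : ℝ≥0∞) * ENNReal.ofReal (c ^ 3) := by
  classical
  choose d hd using hdir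
  let D : κ → Set (EuclideanSpace ℝ (Fin 3)) := fun j => ⋃ i ∈ Finset.univ.filter (fun i => d i = j), B i
  have hD : ∀ j, D j ⊆ ((ℝ ∙ w j)ᗮ : Submodule ℝ (EuclideanSpace ℝ (Fin 3))) := by
    intro j x hx
    simp only [D, Finset.mem_filter, Finset.mem_univ, true_and, mem_iUnion] at hx
    obtain ⟨i, hij, hxi⟩ := hx
    have := hB i hxi
    rw [hd i, hij] at this
    exact this
  have hcov' : K ⊆ ⋃ j, {x | ∃ b ∈ D j, ∃ t : ℝ, x = b + t • w j} := by
    intro x hx
    obtain ⟨i, b, hb, t, rfl⟩ := mem_iUnion.1 (hcov hx)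
    have hmem : u i ∈ ℝ ∙ w (d i) := by
      rw [← hd i]; exact Submodule.mem_span_singleton_self _
    obtain ⟨r, hr⟩ := Submodule.mem_span_singleton.1 hmem
    refine mem_iUnion.2 ⟨d i, b, ?_, t * r, ?_⟩
    · simp only [D, Finset.mem_filter, Finset.mem_univ, true_and, mem_iUnion]
      exact ⟨i, rfl, hb⟩
    · rw [← hr, smul_smul]
  have h := refined cK kK iK w hw D hD hcov' (fun _ => c) (fun _ => hc0) (fun _ => hc1)
  rw [Finset.sum_add_distrib, ← Finset.mul_sum, Finset.sum_const, Finset.card_univ,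
    nsmul_eq_mul] at h
  refine h.trans ?_
  gcongr
  -- compare the sums
  calc ∑ j, μHE[2] (D j) / μHE[2] ((ℝ ∙ w j)ᗮ.starProjection '' K)
      ≤ ∑ j, ∑ i ∈ Finset.univ.filter (fun i => d i = j),
          μHE[2] (B i) / μHE[2] ((ℝ ∙ u i)ᗮ.starProjection '' K) := by
        apply Finset.sum_le_sum
        intro j _
        calc μHE[2] (D j) / μHE[2] ((ℝ ∙ w j)ᗮ.starProjection '' K)
            ≤ (∑ i ∈ Finset.univ.filter (fun i => d i = j), μHE[2] (B i))
              / μHE[2] ((ℝ ∙ w j)ᗮ.starProjection '' K) := by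
              gcongr
              exact measure_biUnion_finset_le _ _
          _ = ∑ i ∈ Finset.univ.filter (fun i => d i = j),
              μHE[2] (B i) / μHE[2] ((ℝ ∙ u i)ᗮ.starProjection '' K) := by
              simp only [div_eq_mul_inv]
              rw [Finset.sum_mul]
              apply Finset.sum_congr rfl
              intro i hi
              have hij : d i = j := (Finset.mem_filter.1 hi).2
              rw [starProjection_congr (hd i), hij]
    _ = ∑ i, μHE[2] (B i) / μHE[2] ((ℝ ∙ u i)ᗮ.starProjection '' K) :=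
        Finset.sum_fiberwise (s := Finset.univ) (g := d)
          (f := fun i => μHE[2] (B i) / μHE[2] ((ℝ ∙ u i)ᗮ.starProjection '' K))

end Vale.Agent.Lib.P243
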