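import Mathlib
import Vale.Agent.Lib.P243.Defs
import Vale.Agent.Lib.P243.Main

open MeasureTheory Measure Set
open scoped ENNReal

namespace Vale.Agent.Lib.P243

variable {K : Set E3} {m : ℕ} {u : Fin m → E3} {B : Fin m → Set E3}

theorem refined_defs (hK : IsConvexBody K) (hC : IsCylinderCover K u B)
    (c : Fin m → ℝ) (hc : ∀ i, 0 ≤ c i ∧ c i ≤ 1) :
    1 ≤ ∑ i, (ENNReal.ofReal (3 * (1 - c i)) * relBase K (u i) (B i)
      + ENNReal.ofReal (c i ^ 3)) :=
  refined hK.1 hK.2.1 hK.2.2 u hC.1 B hC.2.1 hC.2.2 c (fun i => (hc i).1) (fun i => (hc i).2)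

theorem lines_defs (hK : IsConvexBody K) (hC : IsCylinderCover K u B)
    {k : ℕ} (w : Fin k → E3) (hw : ∀ j, ‖w j‖ = 1) (hdir : ∀ i, ∃ j, SameLine (u i) (w j))
    {c : ℝ} (hc0 : 0 ≤ c) (hc1 : c ≤ 1) :
    1 ≤ ENNReal.ofReal (3 * (1 - c)) * ∑ i, relBase K (u i) (B i)
      + (k : ℝ≥0∞) * ENNReal.ofReal (c ^ 3) := by
  have := lines_bound hK.1 hK.2.1 hK.2.2 u B hC.2.1 hC.2.2 w hw hdir hc0 hc1
  rwa [Fintype.card_fin] at this

/-- total base area is at least `A_min` times the directionwise relative area -/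
theorem min_mul_le (hC : IsCylinderCover K u B) :
    minShadowArea K * ∑ i, relBase K (u i) (B i) ≤ ∑ i, area (B i) := by
  rw [Finset.mul_sum]
  apply Finset.sum_le_sum
  intro i _
  have hai : minShadowArea K ≤ area (shadow (u i) K) := iInf₂_le (u i) (hC.1 i)
  calc minShadowArea K * relBase K (u i) (B i)
      ≤ area (shadow (u i) K) * (area (B i) / area (shadow (u i) K)) := by
        unfold relBase; gcongr
    _ ≤ area (B i) := ENNReal.mul_div_le

theorem two_lines (hK : IsConvexBody K) (hC : IsCylinderCover K u B)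
    (w₁ w₂ : E3) (hw₁ : ‖w₁‖ = 1) (hw₂ : ‖w₂‖ = 1)
    (hdir : ∀ i, SameLine (u i) w₁ ∨ SameLine (u i) w₂) :
    (1 / 2 : ℝ≥0∞) ≤ ∑ i, relBase K (u i) (B i)
      ∧ minShadowArea K / 2 ≤ ∑ i, area (B i) := by
  have h := lines_defs hK hC (fun j : Fin 2 => if j = 0 then w₁ else w₂)
    (by intro j; by_cases hj : j = 0 <;> simp [hj, hw₁, hw₂])
    (by
      intro i
      rcases hdir i with h | h
      · exact ⟨0, by simpa using h⟩
      · exact ⟨1, by simpa using h⟩)
    (c := 1 / 2) (by norm_num) (by norm_num)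
  have h1 : (1 / 2 : ℝ≥0∞) ≤ ∑ i, relBase K (u i) (B i) := by
    have e : ((2 : ℕ) : ℝ≥0∞) * ENNReal.ofReal ((1 / 2 : ℝ) ^ 3) = ENNReal.ofReal (1 / 4) := by
      have : ((2 : ℕ) : ℝ≥0∞) = ENNReal.ofReal 2 := by simp
      rw [this, ← ENNReal.ofReal_mul (by norm_num)]
      norm_num
    rw [e] at h
    have h2 := solve_linear (by norm_num) (by norm_num) h
    have e2 : ENNReal.ofReal ((1 - 1 / 4) / (3 * (1 - 1 / 2))) = (1 / 2 : ℝ≥0∞) := by
      have : ((1 - 1 / 4) / (3 * (1 - 1 / 2)) : ℝ) = 1 / 2 := by norm_num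
      rw [this, ENNReal.ofReal_div_of_pos (by norm_num)]
      simp
    rwa [e2] at h2
  refine ⟨h1, ?_⟩
  calc minShadowArea K / 2 = minShadowArea K * (1 / 2) := by rw [mul_one_div]
    _ ≤ minShadowArea K * ∑ i, relBase K (u i) (B i) := by gcongr
    _ ≤ ∑ i, area (B i) := min_mul_le hC

theorem count_bound (hK : IsConvexBody K) (hC : IsCylinderCover K u B)
    {k : ℕ} (hk : 1 ≤ k) (w : Fin k → E3) (hw : ∀ j, ‖w j‖ = 1)
    (hdir : ∀ i, ∃ j, SameLine (u i) (w j)) :
    ENNReal.ofReal (1 / 3 + 1 / (8 * √(k : ℝ))) ≤ ∑ i, relBase K (u i) (B i) := by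
  have hk' : (1 : ℝ) ≤ k := by exact_mod_cast hk
  have hs1 : 1 ≤ √(k : ℝ) := by
    rw [show (1 : ℝ) = √1 by simp]; exact Real.sqrt_le_sqrt hk'
  have hs2 : √(k : ℝ) ^ 2 = k := Real.sq_sqrt (by linarith)
  set s := √(k : ℝ) with hs
  set c := 1 / (2 * s) with hc
  have hc0 : 0 < c := by positivity
  have hc1 : c ≤ 1 / 2 := by
    rw [hc, div_le_div_iff₀ (by positivity) (by norm_num)]; linarith
  have h := lines_defs hK hC w hw hdir hc0.le (by linarith)
  have e : (k : ℝ≥0∞) * ENNReal.ofReal (c ^ 3) = ENNReal.ofReal (c / 4) := by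
    have : (k : ℝ≥0∞) = ENNReal.ofReal (k : ℝ) := by simp
    rw [this, ← ENNReal.ofReal_mul (by linarith)]
    congr 1
    rw [← hs2, hc]; field_simp; ring
  rw [e] at h
  have h2 := solve_linear (by linarith) (by positivity) h
  refine le_trans (ENNReal.ofReal_le_ofReal ?_) h2
  have e3 : 1 / (8 * s) = c / 4 := by rw [hc]; field_simp; ring
  rw [e3, le_div_iff₀ (by linarith)]
  nlinarith [sq_nonneg c]

theorem pow_form (hK : IsConvexBody K) (hC : IsCylinderCover K u B) :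
    1 + 2 * ∑ i, (min 1 (relBase K (u i) (B i))) ^ (3 / 2 : ℝ)
      ≤ 3 * ∑ i, relBase K (u i) (B i) := by
  set β : Fin m → ℝ≥0∞ := fun i => relBase K (u i) (B i) with hβ
  set c : Fin m → ℝ := fun i => √((min 1 (β i)).toReal) with hc
  have hmin : ∀ i, min 1 (β i) ≠ ⊤ := fun i => ne_top_of_le_ne_top ENNReal.one_ne_top (min_le_left _ _)
  have hc01 : ∀ i, 0 ≤ c i ∧ c i ≤ 1 := by
    intro i
    refine ⟨Real.sqrt_nonneg _, ?_⟩
    rw [hc]; simp only
    have := ENNReal.toReal_mono ENNReal.one_ne_top (min_le_left 1 (β i))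
    rw [ENNReal.toReal_one] at this
    calc √((min 1 (β i)).toReal) ≤ √1 := Real.sqrt_le_sqrt this
      _ = 1 := Real.sqrt_one
  have h := refined_defs hK hC c hc01
  have key : ∀ i, ENNReal.ofReal (3 * (1 - c i)) * β i + ENNReal.ofReal (c i ^ 3)
      + 2 * (min 1 (β i)) ^ (3 / 2 : ℝ) ≤ 3 * β i := by
    intro i
    have hci := hc01 i
    have hpow : (min 1 (β i)) ^ (3 / 2 : ℝ) = ENNReal.ofReal (c i ^ 3) := by
      have e1 : min 1 (β i) = ENNReal.ofReal ((min 1 (β i)).toReal) :=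
        (ENNReal.ofReal_toReal (hmin i)).symm
      rw [e1, ENNReal.ofReal_rpow_of_nonneg ENNReal.toReal_nonneg (by norm_num)]
      congr 1
      rw [hc]; simp only
      rw [Real.sqrt_eq_rpow, ← Real.rpow_natCast, ← Real.rpow_mul ENNReal.toReal_nonneg]
      norm_num
    rw [hpow]
    by_cases hb : β i ≤ 1
    · have hm : min 1 (β i) = β i := min_eq_right hb
      have hfin : β i ≠ ⊤ := ne_top_of_le_ne_top ENNReal.one_ne_top hb
      have hsq : c i ^ 2 = (β i).toReal := by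
        rw [hc]; simp only
        rw [hm, Real.sq_sqrt ENNReal.toReal_nonneg]
      have eβ : β i = ENNReal.ofReal (c i ^ 2) := by rw [hsq, ENNReal.ofReal_toReal hfin]
      rw [eβ]
      have e2 : (2 : ℝ≥0∞) = ENNReal.ofReal 2 := by simp
      have e3 : (3 : ℝ≥0∞) = ENNReal.ofReal 3 := by simp
      rw [e2, e3, ← ENNReal.ofReal_mul (by linarith), ← ENNReal.ofReal_mul (by norm_num),
        ← ENNReal.ofReal_mul (by norm_num), ← ENNReal.ofReal_add (by
          have : 0 ≤ 1 - c i := by linarith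
          positivity) (by positivity),
        ← ENNReal.ofReal_add (by
          have : 0 ≤ 1 - c i := by linarith
          positivity) (by positivity)]
      apply ENNReal.ofReal_le_ofReal
      nlinarith
    · push Not at hb
      have hm : min 1 (β i) = 1 := min_eq_left hb.le
      have hc1 : c i = 1 := by
        rw [hc]; simp only
        rw [hm]; simp
      rw [hc1]
      simp only [sub_self, mul_zero, ENNReal.ofReal_zero, zero_mul, one_pow, ENNReal.ofReal_one,
        zero_add, mul_one]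
      calc (1 : ℝ≥0∞) + 2 = 3 * 1 := by norm_num
        _ ≤ 3 * β i := by gcongr
  calc 1 + 2 * ∑ i, (min 1 (β i)) ^ (3 / 2 : ℝ)
      ≤ ∑ i, (ENNReal.ofReal (3 * (1 - c i)) * β i + ENNReal.ofReal (c i ^ 3))
        + 2 * ∑ i, (min 1 (β i)) ^ (3 / 2 : ℝ) := by gcongr
    _ = ∑ i, (ENNReal.ofReal (3 * (1 - c i)) * β i + ENNReal.ofReal (c i ^ 3)
        + 2 * (min 1 (β i)) ^ (3 / 2 : ℝ)) := by
        rw [Finset.mul_sum, ← Finset.sum_add_distrib]
    _ ≤ ∑ i, 3 * β i := Finset.sum_le_sum fun i _ => key i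
    _ = 3 * ∑ i, β i := (Finset.mul_sum _ _ _).symm

end Vale.Agent.Lib.P243
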